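import Crest.Agent.R110.Ineq

/-! # Row 110: the approximate projection, algebra -/

set_option autoImplicit false
set_option linter.unusedSectionVars false

namespace Crest.Agent.R110

variable {D : Type*} [CStarAlgebra D] [PartialOrder D] [StarOrderedRing D]

/-- pure algebra. `S = 1 - s₁ - s₂`, `w = x + S`, `p = 1 - w w⋆`; `S x = 0`, `S S = 1 - H₁ - H₂` with
`Hᵢ = 2 sᵢ - sᵢ²`, `w⋆ w = 1 - H₂ + Δ`, `Δ = x⋆ x - H₁`, `p - p² = w (H₂ - Δ) w⋆`,
`w H₂ w⋆ = S H₂ S = (1 - s₂)² (2 - s₂) s₂`. Norms: `‖H₂‖ ≤ 3`, `‖w‖² ≤ 5`. -/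
theorem ap_alg {s₁ s₂ x : D} (h1 : IsSelfAdjoint s₁) (h2 : IsSelfAdjoint s₂) (n1 : ‖s₂‖ ≤ 1)
    (h12 : s₁ * s₂ = 0) (hx : (s₁ + s₂) * x = x) (hx2 : x * s₂ = 0) {θ : ℝ} (hθ : θ ≤ 1)
    (hΔ : ‖star x * x - (s₁ + s₁ - s₁ * s₁)‖ ≤ θ) (z : D) :
    ‖(1 : D) - (x + (1 - s₁ - s₂)) * star (x + (1 - s₁ - s₂))‖ ≤ 6 ∧
    ‖star z * (((1 : D) - (x + (1 - s₁ - s₂)) * star (x + (1 - s₁ - s₂))) -
        (1 - (x + (1 - s₁ - s₂)) * star (x + (1 - s₁ - s₂))) *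
          (1 - (x + (1 - s₁ - s₂)) * star (x + (1 - s₁ - s₂)))) * z‖ ≤
      12 * ‖z‖ * ‖s₂ * z‖ + 5 * θ * ‖z‖ ^ 2 := by
  have one_le : ‖(1 : D)‖ ≤ 1 := by
    nontriviality D
    simp
  have hθ0 : 0 ≤ θ := (norm_nonneg _).trans hΔ
  have h21 : s₂ * s₁ = 0 := by
    have := congrArg star h12
    rwa [star_mul, h1.star_eq, h2.star_eq, star_zero] at this
  have h2x : s₂ * star x = 0 := by
    have := congrArg star hx2
    rwa [star_mul, h2.star_eq, star_zero] at this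
  obtain ⟨S, hS⟩ : ∃ S : D, S = 1 - s₁ - s₂ := ⟨_, rfl⟩
  obtain ⟨H, hH⟩ : ∃ H : D, H = s₂ + s₂ - s₂ * s₂ := ⟨_, rfl⟩
  obtain ⟨Δ, hD⟩ : ∃ Δ : D, Δ = star x * x - (s₁ + s₁ - s₁ * s₁) := ⟨_, rfl⟩
  rw [← hD] at hΔ
  rw [← hS]
  have hSs : star S = S := by rw [hS, star_sub, star_sub, star_one, h1.star_eq, h2.star_eq]
  have hSx : S * x = 0 := by
    rw [hS, sub_sub, sub_mul, one_mul, hx, sub_self]
  have hxS : star x * S = 0 := by
    have := congrArg star hSx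
    rwa [star_mul, hSs, star_zero] at this
  have hSS : S * S = 1 - (s₁ + s₁ - s₁ * s₁) - H := by
    have : S * S = 1 - (s₁ + s₁ - s₁ * s₁) - H + s₁ * s₂ + s₂ * s₁ := by
      rw [hS, hH]; noncomm_ring
    rw [this, h12, h21, add_zero, add_zero]
  obtain ⟨w, hw⟩ : ∃ w : D, w = x + S := ⟨_, rfl⟩
  rw [← hw]
  have hws : star w = star x + S := by rw [hw, star_add, hSs]
  have hww : star w * w = 1 - (H - Δ) := by
    have : star w * w = star x * x + star x * S + S * x + S * S := by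
      rw [hws, hw]; noncomm_ring
    rw [this, hxS, hSx, hSS, hD]; abel
  have hxH : x * H = 0 := by
    have : x * H = x * s₂ + x * s₂ - x * s₂ * s₂ := by rw [hH]; noncomm_ring
    rw [this, hx2]; simp
  have hHx : H * star x = 0 := by
    have : H * star x = s₂ * star x + s₂ * star x - s₂ * (s₂ * star x) := by rw [hH]; noncomm_ring
    rw [this, h2x]; simp
  have hSH : S * H * S = (1 - s₂) * (1 - s₂) * (1 + 1 - s₂) * s₂ := by
    have e1 : S * s₂ = (1 - s₂) * s₂ := by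
      have : S * s₂ = (1 - s₂) * s₂ - s₁ * s₂ := by rw [hS]; noncomm_ring
      rw [this, h12, sub_zero]
    have e2 : s₂ * S = s₂ * (1 - s₂) := by
      have : s₂ * S = s₂ * (1 - s₂) - s₂ * s₁ := by rw [hS]; noncomm_ring
      rw [this, h21, sub_zero]
    have e3 : S * H * S = (S * s₂) * S + S * (s₂ * S) - (S * s₂) * (s₂ * S) := by
      rw [hH]; noncomm_ring
    have e4 : (S * s₂) * S = (1 - s₂) * (s₂ * S) := by rw [e1, mul_assoc]
    have e5 : S * (s₂ * S) = (S * s₂) * (1 - s₂) := by rw [e2, mul_assoc]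
    rw [e3, e4, e5, e1, e2]; noncomm_ring
  have hwH : w * H * star w = (1 - s₂) * (1 - s₂) * (1 + 1 - s₂) * s₂ := by
    have : w * H * star w = x * H * star w + S * (H * star x) + S * H * S := by
      rw [hws, hw]; noncomm_ring
    rw [this, hxH, hHx, hSH]; simp
  have hpp : (1 - w * star w) - (1 - w * star w) * (1 - w * star w)
      = (1 - s₂) * (1 - s₂) * (1 + 1 - s₂) * s₂ - w * Δ * star w := by
    have : (1 - w * star w) - (1 - w * star w) * (1 - w * star w)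
        = w * star w - w * (star w * w) * star w := by noncomm_ring
    rw [this, hww, ← hwH]; noncomm_ring
  have nH : ‖H‖ ≤ 3 := by
    rw [hH]
    have a1 := norm_sub_le (s₂ + s₂) (s₂ * s₂)
    have a2 := norm_add_le s₂ s₂
    have a3 := norm_mul_le s₂ s₂
    nlinarith [norm_nonneg s₂]
  have nw : ‖w‖ * ‖w‖ ≤ 5 := by
    rw [← CStarRing.norm_star_mul_self, hww]
    have a1 := norm_sub_le (1 : D) (H - Δ)
    have a2 := norm_sub_le H Δ
    linarith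
  refine ⟨?_, ?_⟩
  · have a1 := norm_sub_le (1 : D) (w * star w)
    rw [CStarRing.norm_self_mul_star] at a1
    linarith
  · have e : star z * ((1 - s₂) * (1 - s₂) * (1 + 1 - s₂) * s₂ - w * Δ * star w) * z
        = star z * ((1 - s₂) * (1 - s₂) * (1 + 1 - s₂)) * (s₂ * z)
          - star z * (w * Δ * star w) * z := by noncomm_ring
    rw [hpp, e]
    have b1 : ‖(1 : D) - s₂‖ ≤ 2 := by linarith [norm_sub_le (1 : D) s₂]
    have b2 : ‖(1 : D) + 1 - s₂‖ ≤ 3 := by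
      linarith [norm_sub_le ((1 : D) + 1) s₂, norm_add_le (1 : D) 1]
    have b3 : ‖((1 : D) - s₂) * (1 - s₂) * (1 + 1 - s₂)‖ ≤ 12 := by
      calc _ ≤ ‖(1 : D) - s₂‖ * ‖(1 : D) - s₂‖ * ‖(1 : D) + 1 - s₂‖ := norm_mul₃_le
        _ ≤ 2 * 2 * 3 := by gcongr
        _ = 12 := by norm_num
    have b4 : ‖w * Δ * star w‖ ≤ 5 * θ := by
      calc _ ≤ ‖w‖ * ‖Δ‖ * ‖star w‖ := norm_mul₃_le
        _ = ‖w‖ * ‖w‖ * ‖Δ‖ := by rw [norm_star]; ring
        _ ≤ 5 * θ := by gcongr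
    calc _ ≤ ‖star z * ((1 - s₂) * (1 - s₂) * (1 + 1 - s₂)) * (s₂ * z)‖
          + ‖star z * (w * Δ * star w) * z‖ := norm_sub_le _ _
      _ ≤ ‖star z‖ * ‖((1 : D) - s₂) * (1 - s₂) * (1 + 1 - s₂)‖ * ‖s₂ * z‖
          + ‖star z‖ * ‖w * Δ * star w‖ * ‖z‖ := add_le_add norm_mul₃_le norm_mul₃_le
      _ ≤ ‖z‖ * 12 * ‖s₂ * z‖ + ‖z‖ * (5 * θ) * ‖z‖ := by rw [norm_star]; gcongr
      _ = _ := by ring

end Crest.Agent.R110
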