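import Crest.Agent.R110.JcB

/-! # Row 110: the approximate projection, second copy -/

set_option autoImplicit false
set_option linter.unusedSectionVars false

namespace Crest.Agent.R110

variable {D : Type*} [CStarAlgebra D] [PartialOrder D] [StarOrderedRing D]

/-- the second copy, cut away from `z`. `u = α₁ z k` from `exists_absorb (α₁ z)`, `v = 1 - u`,
`R = α₁ v a₁ v α₁`, `(R₂, s₂)` from `exists_unit R (τ/2)`; `‖s₂ z‖² ≤ (2/τ) ‖a₁‖ ‖v α₁ z‖²`;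
`a₁ = α₁ a₁ α₁ ≤ 2 R + 2 α₁ u a₁ u α₁` (`add_conj_le`, `l = 1`) `≤ 2 R₂ + j + τ`, `j` below `ρ₀`
(`J.mul_mid`), so `cut τ a₁` is below `ρ₀ + R₂` (which is `SPI`: it is below `h`). -/
theorem ap_cut {h a₁ α₁ ρ₀ z : D} (hh : SPI h) (hr : Room a₁ α₁) (hJ : J h α₁) (hρ : J h ρ₀)
    (hz : J ρ₀ (z * star z)) {τ θ : ℝ} (hτ : 0 < τ) (hθ : 0 < θ) :
    ∃ R₂ s₂ : D, Room R₂ s₂ ∧ Her α₁ s₂ ∧ J h s₂ ∧ ‖s₂ * z‖ ≤ θ ∧ J (ρ₀ + R₂) (cut τ a₁) := by
  have ha : 0 ≤ a₁ := hr.1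
  have hα : IsSelfAdjoint α₁ := hr.sa'
  have hτ2 : 0 < τ / 2 := by positivity
  set M : ℝ := (τ / 2)⁻¹ * ‖a₁‖ + 1 with hM
  have hM0 : 0 ≤ (τ / 2)⁻¹ * ‖a₁‖ := by positivity
  have hMpos : 0 < M := by rw [hM]; linarith
  obtain ⟨u, k, huk, hu, -, -, hvz⟩ := exists_absorb (α₁ * z) (θ := θ / M) (by positivity)
  set R : D := star ((1 - u) * α₁) * a₁ * ((1 - u) * α₁) with hR
  have hR0 : 0 ≤ R := conj_nonneg ha _
  have hJa : J h a₁ := hJ.trans hr.J_unit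
  have hJR : J h R := hJa.conj _
  obtain ⟨s₂, hroom, hs1, hs2, hher, -⟩ := exists_unit hR0 hτ2
  have hJR2 : J h (cut (τ / 2) R) := hJR.trans (J_cut_self hR0 hτ2.le)
  refine ⟨cut (τ / 2) R, s₂, hroom, ?_, ?_, ?_, ?_⟩
  · have e : R = α₁ * (star (1 - u) * a₁ * ((1 - u) * α₁)) := by
      rw [hR, star_mul, hα.star_eq]; simp only [mul_assoc]
    have : Her α₁ R := by rw [e]; exact (Her.refl α₁).mul _
    exact this.trans hher
  · exact hJR.of_le_smul hroom.2.1 (by positivity) hs1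
  · have hs : IsSelfAdjoint s₂ := hroom.sa'
    have e1 : star (s₂ * z) * (s₂ * z) = star z * (s₂ * s₂) * z := by
      rw [star_mul, hs.star_eq]; simp only [mul_assoc]
    have e2 : star z * ((τ / 2)⁻¹ • R) * z =
        (τ / 2)⁻¹ • (star ((1 - u) * (α₁ * z)) * a₁ * ((1 - u) * (α₁ * z))) := by
      rw [hR]; simp only [star_mul, mul_smul_comm, smul_mul_assoc, mul_assoc]
    have h1 : star (s₂ * z) * (s₂ * z) ≤
        (τ / 2)⁻¹ • (star ((1 - u) * (α₁ * z)) * a₁ * ((1 - u) * (α₁ * z))) := by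
      rw [e1, ← e2]; exact conj_le hs2 z
    have h2 := norm_mono (star_mul_self_nonneg _) h1
    rw [← norm_sq_eq, norm_smul, Real.norm_of_nonneg (by positivity)] at h2
    set y : D := (1 - u) * (α₁ * z) with hy
    have h3 : ‖star y * a₁ * y‖ ≤ ‖a₁‖ * ‖y‖ ^ 2 := by
      calc ‖star y * a₁ * y‖ ≤ ‖star y * a₁‖ * ‖y‖ := norm_mul_le _ _
        _ ≤ (‖star y‖ * ‖a₁‖) * ‖y‖ := by gcongr; exact norm_mul_le _ _
        _ = ‖a₁‖ * ‖y‖ ^ 2 := by rw [norm_star]; ring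
    have h4 : ‖y‖ ^ 2 ≤ (θ / M) ^ 2 := by gcongr
    have h5 : ‖s₂ * z‖ ^ 2 ≤ θ ^ 2 := by
      calc ‖s₂ * z‖ ^ 2 ≤ (τ / 2)⁻¹ * ‖star y * a₁ * y‖ := h2
        _ ≤ (τ / 2)⁻¹ * (‖a₁‖ * (θ / M) ^ 2) := by
          gcongr
          exact h3.trans (by gcongr)
        _ = ((τ / 2)⁻¹ * ‖a₁‖) * (θ / M) ^ 2 := by ring
        _ ≤ M ^ 2 * (θ / M) ^ 2 := by
          gcongr
          rw [hM]; nlinarith
        _ = θ ^ 2 := by field_simp
    exact abs_le_of_sq_le_sq' h5 hθ.le |>.2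
  · set T : D := star (u * α₁) * a₁ * (u * α₁) with hT
    have hk : 0 ≤ k * a₁ * star k := by
      have := conj_nonneg ha (star k)
      rwa [star_star] at this
    have eT : T = star (α₁ * α₁) * (z * (k * a₁ * star k) * star z) * (α₁ * α₁) := by
      have hu2 : u = star k * star z * α₁ := by
        rw [← hu.star_eq, huk, star_mul, star_mul, hα.star_eq]; simp only [mul_assoc]
      have e : T = α₁ * u * a₁ * u * α₁ := by
        rw [hT, star_mul, hα.star_eq, hu.star_eq]; simp only [mul_assoc]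
      rw [e, star_mul, hα.star_eq]
      nth_rewrite 2 [hu2]
      nth_rewrite 1 [huk]
      simp only [mul_assoc]
    have hJT : J ρ₀ T := by rw [eT]; exact (hz.mul_mid hk).conj _
    have hS : SPI (ρ₀ + cut (τ / 2) R) := hh.of_J (hh.add hρ hJR2)
    have j1 : J (ρ₀ + cut (τ / 2) R) ρ₀ := J_of_le hρ.nonneg (le_add_of_nonneg_right hroom.1)
    have j2 : J (ρ₀ + cut (τ / 2) R) (cut (τ / 2) R) :=
      J_of_le hroom.1 (le_add_of_nonneg_left hρ.nonneg)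
    have j3 : J (ρ₀ + cut (τ / 2) R) ((2 : ℝ) • cut (τ / 2) R + (2 : ℝ) • T) :=
      hS.add (j2.smul (by norm_num)) ((j1.trans hJT).smul (by norm_num))
    refine j3.to_cut hr.sa ?_
    have e0 : a₁ = star ((1 - u) * α₁ + u * α₁) * a₁ * ((1 - u) * α₁ + u * α₁) := by
      have : (1 - u) * α₁ + u * α₁ = α₁ := by noncomm_ring
      rw [this, hα.star_eq, hr.2.2.2, hr.mul_right]
    have l1 := add_conj_le ha ((1 - u) * α₁) (u * α₁) (l := 1) one_pos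
    rw [← e0, ← hR, ← hT] at l1
    have l2 := smul_le (le_cut_add (IsSelfAdjoint.of_nonneg hR0) (τ / 2)) (t := 2) (by norm_num)
    have e3 : ((1 : ℝ) + 1) • R + ((1 : ℝ) + 1⁻¹) • T = (2 : ℝ) • R + (2 : ℝ) • T := by
      norm_num
    have e4 : (2 : ℝ) • (cut (τ / 2) R + (τ / 2) • (1 : D)) + (2 : ℝ) • T =
        (2 : ℝ) • cut (τ / 2) R + (2 : ℝ) • T + τ • (1 : D) := by module
    rw [e3] at l1
    rw [← e4]
    exact l1.trans (add_le_add_left l2 _)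

end Crest.Agent.R110
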