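import Crest.Agent.R110.Rooms
import Crest.Agent.R110.APa
import Crest.Agent.R110.APb

/-! # Row 110: the approximate projection -/

set_option autoImplicit false
set_option linter.unusedSectionVars false

namespace Crest.Agent.R110

variable {D : Type*} [CStarAlgebra D] [PartialOrder D] [StarOrderedRing D]

/-- `rooms2 h g (ε/2)`: `(a₀, α₀)`, `(a₁, α₁)`. `τ` with `Nr α₀ (cut τ a₁) (1/2)`, so `a₀` is below
`cut τ a₁` (`Room.J_of_le`). `g ≤ j + ε/2`, `j` below `a₀`; `τ₀` with `Nr j (cut τ₀ a₀) (ε/4)`; `s₁` = unit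
of `cut τ₀ a₀` (`exists_unit`), `α₀ s₁ = s₁`; `rooms2` in `cut τ₀ a₀` with `ε/4` gives `(a, α)` and
`(ρ₀, _)`, both with unit `s₁`, `cut ε g` below both. `ap_cut` gives `(R₂, s₂)`. `H₁ = 2 s₁ - s₁²` is below
`a₀`, hence below `ρ₀ + R₂`; `J.exists_fac` gives `r`; `x = (ρ₀ + R₂) r α₀`; `ap_alg`.
`p α = α` since `w⋆ α = 0`; if `n h = 0` then `n w = n` and `n w⋆ = n`. -/
theorem ap {h g z : D} (hh : SPI h) (hg : J h g) {ε θ : ℝ} (hε : 0 < ε) (hθ : 0 < θ)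
    (hz : J (cut ε g) (z * star z)) :
    ∃ p a α : D, IsSelfAdjoint p ∧ ‖p‖ ≤ 6 ∧ Her h p ∧ Room a α ∧ p * α = α ∧ J h α ∧
      J a (cut ε g) ∧ ‖star z * (p - p * p) * z‖ ≤ θ := by
  have hgsa : IsSelfAdjoint g := IsSelfAdjoint.of_nonneg hg.nonneg
  obtain ⟨a₀, α₀, a₁, α₁, hr0, hr1, hH0, hH1, hJ0, hJ1, h01, hJ10, hN0, -⟩ :=
    rooms2 hh hg (half_pos hε)
  obtain ⟨τ, hτ, j₀, hj₀, hle₀⟩ := J.exists_cut hr1.1 hJ10 (show (0 : ℝ) < 1 / 2 by norm_num)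
  have ha₀ : J (cut τ a₁) a₀ := hr0.J_of_le hj₀ (by norm_num) hle₀
  obtain ⟨j, hj, hgj⟩ := hN0
  have hε4 : 0 < ε / 4 := by positivity
  obtain ⟨τ₀, hτ₀, j', hj', hjj'⟩ := J.exists_cut hr0.1 hj hε4
  obtain ⟨s₁, hs₁, hs₁le, -, hHs₁, -⟩ := exists_unit hr0.1 hτ₀
  have hα₀s₁ : α₀ * s₁ = s₁ := hHs₁.unit hr0.2.2.2
  have hs₁sa : IsSelfAdjoint s₁ := hs₁.sa'
  have hα₀sa : IsSelfAdjoint α₀ := hr0.sa'
  have hs₁α₀ : s₁ * α₀ = s₁ := by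
    have := congrArg star hα₀s₁
    rwa [star_mul, hs₁sa.star_eq, hα₀sa.star_eq] at this
  have hJe : J h (cut τ₀ a₀) := (hJ0.trans hr0.J_unit).trans (J_cut_self hr0.1 hτ₀.le)
  obtain ⟨a, α, ρ₀, β, hra, hrρ, hHα, hHβ, hJα, hJβ, hαβ, -, hNa, hNρ⟩ :=
    rooms2 (hh.of_J hJe) hj' hε4
  have hNg : ∀ k : D, Nr j' k (ε / 4) → J k (cut ε g) := by
    intro k hk
    have h1 := Nr.step hgj (Nr.step hjj' hk)
    rw [show ε / 2 + (ε / 4 + ε / 4) = ε by ring] at h1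
    exact h1.to_cut hgsa
  have hs₁α : s₁ * α = α := hHα.unit hs₁.2.2.2
  have hs₁ρ : s₁ * ρ₀ = ρ₀ := (hHβ.trans hrρ.her).unit hs₁.2.2.2
  have hJρ : J h ρ₀ := (hJe.trans hJβ).trans hrρ.J_unit
  have hz0 : 0 ≤ ‖z‖ := norm_nonneg z
  have hθ1 : 0 < θ / (24 * (‖z‖ + 1)) := by positivity
  obtain ⟨R₂, s₂, hr2, hH2, -, hs₂z, hJd⟩ :=
    ap_cut hh hr1 hJ1 hJρ ((hNg ρ₀ hNρ).trans hz) hτ hθ1
  have hs₂sa : IsSelfAdjoint s₂ := hr2.sa'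
  have hα₀s₂ : α₀ * s₂ = 0 := hH2 _ h01
  have h12 : s₁ * s₂ = 0 := by rw [← hs₁α₀, mul_assoc, hα₀s₂, mul_zero]
  have h21 : s₂ * s₁ = 0 := by
    have := congrArg star h12
    rwa [star_mul, hs₁sa.star_eq, hs₂sa.star_eq, star_zero] at this
  have hsq : s₁ * s₁ ≤ s₁ := sq_le_self hs₁.2.1 hs₁.2.2.1
  have hH0' : 0 ≤ s₁ + s₁ - s₁ * s₁ := by
    rw [add_sub_assoc]
    exact add_nonneg hs₁.2.1 (sub_nonneg.2 hsq)
  have hHle : s₁ + s₁ - s₁ * s₁ ≤ (τ₀⁻¹ + τ₀⁻¹) • a₀ := by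
    have h0 : 0 ≤ s₁ * s₁ := by
      have := star_mul_self_nonneg s₁
      rwa [hs₁sa.star_eq] at this
    rw [add_smul]
    exact (sub_le_self _ h0).trans (add_le_add hs₁le hs₁le)
  have hJH : J (ρ₀ + R₂) (s₁ + s₁ - s₁ * s₁) :=
    (hJd.trans ha₀).of_le_smul hH0' (by positivity) hHle
  have hθ2 : 0 < min 1 (θ / (10 * (‖z‖ ^ 2 + 1))) := lt_min one_pos (by positivity)
  obtain ⟨r, hr⟩ := J.exists_fac (add_nonneg hrρ.1 hr2.1) hJH hθ2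
  have hdsa : IsSelfAdjoint (ρ₀ + R₂) := hrρ.sa.add hr2.sa
  set x : D := (ρ₀ + R₂) * r * α₀ with hxdef
  have hsx : star x = α₀ * star r * (ρ₀ + R₂) := by
    rw [hxdef, star_mul, star_mul, hdsa.star_eq, hα₀sa.star_eq, mul_assoc]
  have hd : (s₁ + s₂) * (ρ₀ + R₂) = ρ₀ + R₂ := by
    have e1 : s₁ * R₂ = 0 := by rw [← hr2.2.2.2, ← mul_assoc, h12, zero_mul]
    have e2 : s₂ * ρ₀ = 0 := by rw [← hs₁ρ, ← mul_assoc, h21, zero_mul]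
    rw [add_mul, mul_add, mul_add, hs₁ρ, e1, e2, hr2.2.2.2, add_zero, zero_add]
  have hx : (s₁ + s₂) * x = x := by rw [hxdef, ← mul_assoc, ← mul_assoc, hd]
  have hx2 : x * s₂ = 0 := by rw [hxdef, mul_assoc, hα₀s₂, mul_zero]
  have hΔ : ‖star x * x - (s₁ + s₁ - s₁ * s₁)‖ ≤ min 1 (θ / (10 * (‖z‖ ^ 2 + 1))) := by
    have e1 : α₀ * (s₁ + s₁ - s₁ * s₁) * α₀ = s₁ + s₁ - s₁ * s₁ := by
      rw [mul_sub, mul_add, ← mul_assoc, hα₀s₁, sub_mul, add_mul, mul_assoc, hs₁α₀]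
    have e2 : star x * x - (s₁ + s₁ - s₁ * s₁) =
        α₀ * (star ((ρ₀ + R₂) * r) * ((ρ₀ + R₂) * r) - (s₁ + s₁ - s₁ * s₁)) * α₀ := by
      rw [mul_sub, sub_mul, e1, hxdef, star_mul, hα₀sa.star_eq]
      simp only [mul_assoc]
    rw [e2]
    have hn := hr0.norm_le
    have hn0 := norm_nonneg α₀
    have hm0 := norm_nonneg (star ((ρ₀ + R₂) * r) * ((ρ₀ + R₂) * r) - (s₁ + s₁ - s₁ * s₁))
    calc _ ≤ ‖α₀‖ * ‖star ((ρ₀ + R₂) * r) * ((ρ₀ + R₂) * r) - (s₁ + s₁ - s₁ * s₁)‖ * ‖α₀‖ :=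
          (norm_mul_le _ _).trans (mul_le_mul_of_nonneg_right (norm_mul_le _ _) hn0)
      _ ≤ 1 * ‖star ((ρ₀ + R₂) * r) * ((ρ₀ + R₂) * r) - (s₁ + s₁ - s₁ * s₁)‖ * 1 := by gcongr
      _ ≤ _ := by rw [one_mul, mul_one]; exact hr.le
  obtain ⟨hp6, hpz⟩ := ap_alg hs₁sa hs₂sa hr2.norm_le h12 hx hx2 (min_le_left _ _) hΔ z
  have hSsa : star ((1 : D) - s₁ - s₂) = 1 - s₁ - s₂ := by
    rw [star_sub, star_sub, star_one, hs₁sa.star_eq, hs₂sa.star_eq]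
  refine ⟨1 - (x + (1 - s₁ - s₂)) * star (x + (1 - s₁ - s₂)), a, α, ?_, hp6, ?_, hra, ?_,
    hJe.trans hJα, hNg a hNa, hpz.trans ?_⟩
  · exact (IsSelfAdjoint.one D).sub (IsSelfAdjoint.mul_star_self _)
  · intro n hn
    have n0 : n * α₀ = 0 := hH0 n hn
    have n1 : n * s₁ = 0 := by rw [← hα₀s₁, ← mul_assoc, n0, zero_mul]
    have n2 : n * s₂ = 0 := hH2 n (hH1 n hn)
    have nS : n * (1 - s₁ - s₂) = n := by rw [mul_sub, mul_sub, n1, n2, mul_one, sub_zero, sub_zero]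
    have nx : n * x = 0 := by rw [← hx, ← mul_assoc, mul_add, n1, n2, add_zero, zero_mul]
    have nx' : n * star x = 0 := by rw [hsx, ← mul_assoc, ← mul_assoc, n0, zero_mul, zero_mul]
    have nw : n * (x + (1 - s₁ - s₂)) = n := by rw [mul_add, nx, nS, zero_add]
    have nw' : n * star (x + (1 - s₁ - s₂)) = n := by rw [star_add, hSsa, mul_add, nx', nS, zero_add]
    rw [mul_sub, ← mul_assoc, nw, nw', mul_one, sub_self]
  · have hβα : β * α = 0 := by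
      have := congrArg star hαβ
      rwa [star_mul, hra.sa'.star_eq, hrρ.sa'.star_eq, star_zero] at this
    have e0 : s₂ * α = 0 := by rw [← hs₁α, ← mul_assoc, h21, zero_mul]
    have e1 : ρ₀ * α = 0 := by rw [← hrρ.mul_right, mul_assoc, hβα, mul_zero]
    have e2 : R₂ * α = 0 := by rw [← hr2.mul_right, mul_assoc, e0, mul_zero]
    have e3 : star x * α = 0 := by rw [hsx, mul_assoc, add_mul, e1, e2, add_zero, mul_zero]
    have e4 : (1 - s₁ - s₂) * α = 0 := by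
      rw [sub_mul, sub_mul, one_mul, hs₁α, e0, sub_self, sub_self]
    have e5 : star (x + (1 - s₁ - s₂)) * α = 0 := by
      rw [star_add, hSsa, add_mul, e3, e4, add_zero]
    rw [sub_mul, one_mul, mul_assoc, e5, mul_zero, sub_zero]
  · have b1 : 12 * ‖z‖ * ‖s₂ * z‖ ≤ θ / 2 := by
      calc 12 * ‖z‖ * ‖s₂ * z‖ ≤ 12 * (‖z‖ + 1) * (θ / (24 * (‖z‖ + 1))) := by
            gcongr
            linarith
        _ = θ / 2 := by field_simp; ring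
    have b2 : 5 * min 1 (θ / (10 * (‖z‖ ^ 2 + 1))) * ‖z‖ ^ 2 ≤ θ / 2 := by
      calc 5 * min 1 (θ / (10 * (‖z‖ ^ 2 + 1))) * ‖z‖ ^ 2
          ≤ 5 * (θ / (10 * (‖z‖ ^ 2 + 1))) * (‖z‖ ^ 2 + 1) := by
            gcongr
            · exact min_le_right _ _
            · linarith
        _ = θ / 2 := by field_simp; ring
    linarith

end Crest.Agent.R110
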