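import Crest.Agent.R110.Ineq

/-! # Row 110: the facts that use the continuous functional calculus

All are one-variable identities or inequalities: write both sides as `cfc f e` (`cfc_id'`, `cfc_mul`,
`cfc_sub`, `cfc_const`, `cfc_smul`, ...) and use `cfc_congr`, `cfc_mono`/`cfc_nonneg`, `norm_cfc_le`
(the spectrum of a positive element is nonnegative: `spectrum_nonneg_of_nonneg`). -/

set_option autoImplicit false
set_option linter.unusedSectionVars false

namespace Crest.Agent.R110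

variable {D : Type*} [CStarAlgebra D] [PartialOrder D] [StarOrderedRing D]

theorem CfcX.lin {e : D} (he : IsSelfAdjoint e) (τ : ℝ) :
    e - τ • (1 : D) = cfc (fun t : ℝ => t - τ) e := by
  rw [cfc_sub .., cfc_id' ℝ e, cfc_const τ e, Algebra.algebraMap_eq_smul_one]

theorem cut_nonneg (τ : ℝ) (e : D) : 0 ≤ cut τ e := by
  exact cfc_nonneg fun _ _ => le_max_right _ _
theorem cut_sa (τ : ℝ) (e : D) : IsSelfAdjoint (cut τ e) := by
  exact .of_nonneg (cut_nonneg τ e)
theorem le_cut_add {e : D} (he : IsSelfAdjoint e) (τ : ℝ) : e ≤ cut τ e + τ • (1 : D) := by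
  rw [← sub_le_iff_le_add, CfcX.lin he]
  exact cfc_mono (fun _ _ => le_max_left _ _)
theorem le_cut_zero {e : D} (he : IsSelfAdjoint e) : e ≤ cut 0 e := by
  simpa using le_cut_add he 0
theorem mul_cut {e : D} (he : IsSelfAdjoint e) (τ : ℝ) :
    (e - τ • (1 : D)) * cut τ e = cut τ e * cut τ e := by
  rw [CfcX.lin he, cut, ← cfc_mul .., ← cfc_mul ..]
  refine cfc_congr fun t _ => ?_
  rcases le_total (t - τ) 0 with h | h <;> simp [h]
theorem cut_conj {e : D} (he : IsSelfAdjoint e) (τ : ℝ) :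
    cut τ e * (e - τ • (1 : D)) * cut τ e = cut τ e * cut τ e * cut τ e := by
  rw [mul_assoc, mul_cut he, mul_assoc]
theorem cut_conj_zero {e : D} (he : IsSelfAdjoint e) :
    cut 0 e * e * cut 0 e = cut 0 e * cut 0 e * cut 0 e := by
  simpa using cut_conj he 0
theorem cube_nonneg {a : D} (ha : 0 ≤ a) : 0 ≤ a * a * a := by
  simpa [(IsSelfAdjoint.of_nonneg ha).star_eq] using star_left_conjugate_nonneg ha a
theorem cut_le {e : D} (he : 0 ≤ e) {τ : ℝ} (hτ : 0 ≤ τ) : cut τ e ≤ e := by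
  refine (cfc_mono (g := fun t : ℝ => t) fun t ht => ?_).trans_eq (cfc_id' ℝ e)
  exact max_le (by linarith) (spectrum_nonneg_of_nonneg he ht)
theorem norm_cut_sub {e : D} (he : 0 ≤ e) {τ : ℝ} (hτ : 0 ≤ τ) : ‖cut τ e - e‖ ≤ τ := by
  have : cut τ e - e = cfc (fun t : ℝ => max (t - τ) 0 - t) e := by
    rw [cfc_sub .., cfc_id' ℝ e, cut]
  rw [this]
  refine norm_cfc_le hτ fun t ht => ?_
  have := spectrum_nonneg_of_nonneg he ht
  rw [Real.norm_eq_abs, abs_le]
  exact ⟨by linarith [le_max_left (t - τ) 0], sub_le_iff_le_add.2 (max_le (by linarith) (by linarith))⟩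
theorem cut_orth {d : D} (hd : IsSelfAdjoint d) : cut 0 d * cut 0 (-d) = 0 := by
  rw [cut, cut, ← cfc_comp_neg .., ← cfc_mul .., ← cfc_zero ℝ d]
  refine cfc_congr fun t _ => ?_
  rcases le_total t 0 with h | h <;> simp [h]
/-- `d` commutes with `d₊` and `d d₊ = d₊ d₊`, so `(n d₊) (n d₊)⋆ = n d d₊ n⋆ = 0` -/
theorem her_cut_zero {d : D} (hd : IsSelfAdjoint d) : Her d (cut 0 d) := by
  intro n hn
  have h1 : d * cut 0 d = cut 0 d * cut 0 d := by simpa using mul_cut hd 0
  have h2 : cut 0 d * cut 0 d = d * cut 0 d := h1.symm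
  rw [← CStarRing.mul_star_self_eq_zero_iff, star_mul, (cut_sa 0 d).star_eq, mul_assoc,
    ← mul_assoc (cut 0 d), h2, ← mul_assoc, ← mul_assoc, hn, zero_mul, zero_mul]

end Crest.Agent.R110
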