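import Crest.Agent.R110.Cfc

/-! # Row 110: units, twists, absorption (continuous functional calculus, second part) -/

set_option autoImplicit false
set_option linter.unusedSectionVars false

namespace Crest.Agent.R110

variable {D : Type*} [CStarAlgebra D] [PartialOrder D] [StarOrderedRing D]

namespace CfcBX

variable {e : D} {f g : ℝ → ℝ}

theorem cm (hf : Continuous f) (hg : Continuous g) :
    cfc f e * cfc g e = cfc (fun t => f t * g t) e :=
  (cfc_mul f g e hf.continuousOn hg.continuousOn).symm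

theorem ci (he : 0 ≤ e) : cfc (fun t : ℝ => t) e = e := cfc_id' ℝ e he.isSelfAdjoint

theorem c1 (he : 0 ≤ e) : cfc (fun _ : ℝ => (1 : ℝ)) e = 1 := cfc_const_one ℝ e he.isSelfAdjoint

theorem lm (he : 0 ≤ e) (hf : Continuous f) : e * cfc f e = cfc (fun t => t * f t) e := by
  rw [← cm continuous_id' hf, ci he]

theorem rm (he : 0 ≤ e) (hf : Continuous f) : cfc f e * e = cfc (fun t => f t * t) e := by
  rw [← cm hf continuous_id', ci he]

theorem cle (he : 0 ≤ e) (hf : Continuous f) (hg : Continuous g) (h : ∀ t, 0 ≤ t → f t ≤ g t) :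
    cfc f e ≤ cfc g e :=
  cfc_mono (fun t ht => h t (spectrum_nonneg_of_nonneg he ht)) hf.continuousOn hg.continuousOn

theorem cnn (he : 0 ≤ e) (h : ∀ t, 0 ≤ t → 0 ≤ f t) : 0 ≤ cfc f e :=
  cfc_nonneg fun t ht => h t (spectrum_nonneg_of_nonneg he ht)

theorem ceq (he : 0 ≤ e) (h : ∀ t, 0 ≤ t → f t = g t) : cfc f e = cfc g e :=
  cfc_congr fun t ht => h t (spectrum_nonneg_of_nonneg he ht)

theorem cnorm (he : 0 ≤ e) {c : ℝ} (hc : 0 ≤ c) (h : ∀ t, 0 ≤ t → |f t| ≤ c) : ‖cfc f e‖ ≤ c :=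
  norm_cfc_le hc fun t ht => h t (spectrum_nonneg_of_nonneg he ht)

theorem csa : IsSelfAdjoint (cfc f e) := cfc_predicate f e

theorem csmul (r : ℝ) (hf : Continuous f) : r • cfc f e = cfc (fun t => r * f t) e :=
  (cfc_const_mul r f e hf.continuousOn).symm

theorem csub (hf : Continuous f) (hg : Continuous g) :
    cfc f e - cfc g e = cfc (fun t => f t - g t) e :=
  (cfc_sub f g e hf.continuousOn hg.continuousOn).symm

theorem osub (he : 0 ≤ e) (hf : Continuous f) : 1 - cfc f e = cfc (fun t => 1 - f t) e := by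
  rw [← csub continuous_const hf, c1 he]

theorem contG {η : ℝ} (hη : 0 < η) : Continuous fun t : ℝ => (√(|t| + η))⁻¹ :=
  Continuous.inv₀ (by fun_prop) fun t => (Real.sqrt_pos.2 (by positivity)).ne'

theorem GG {η t : ℝ} (hη : 0 < η) (ht : 0 ≤ t) :
    (√(|t| + η))⁻¹ * (√(|t| + η))⁻¹ = (t + η)⁻¹ := by
  rw [← mul_inv, Real.mul_self_sqrt (by positivity), abs_of_nonneg ht]

end CfcBX

open CfcBX

/-- `α = e k` with `k = cfc (fun t => (max t τ)⁻¹) e`; `cut τ e = α * cut τ e` gives the last claim -/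
theorem exists_unit {e : D} (he : 0 ≤ e) {τ : ℝ} (hτ : 0 < τ) :
    ∃ α : D, Room (cut τ e) α ∧ α ≤ τ⁻¹ • e ∧ α * α ≤ τ⁻¹ • e ∧ Her e α ∧ Her e (cut τ e) := by
  have hk : Continuous fun t : ℝ => (max t τ)⁻¹ :=
    Continuous.inv₀ (by fun_prop) fun t => (hτ.trans_le (le_max_right _ _)).ne'
  have hf : Continuous fun t : ℝ => t * (max t τ)⁻¹ := continuous_id'.mul hk
  have hm : ∀ t : ℝ, 0 < max t τ := fun t => hτ.trans_le (le_max_right _ _)
  have h0 : 0 ≤ cfc (fun t : ℝ => t * (max t τ)⁻¹) e :=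
    cnn he fun t ht => mul_nonneg ht (inv_nonneg.2 (hm t).le)
  have h1 : cfc (fun t : ℝ => t * (max t τ)⁻¹) e ≤ 1 := by
    rw [← c1 he]
    refine cle he hf continuous_const fun t _ => ?_
    rw [← div_eq_mul_inv, div_le_one (hm t)]
    exact le_max_left _ _
  have h2 : cfc (fun t : ℝ => t * (max t τ)⁻¹) e * cut τ e = cut τ e := by
    rw [cut, cm hf (by fun_prop)]
    refine ceq he fun t _ => ?_
    rcases le_total t τ with h | h
    · rw [max_eq_right (sub_nonpos.2 h), mul_zero]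
    · rw [max_eq_left h, mul_inv_cancel₀ (hτ.trans_le h).ne', one_mul]
  have h3 : cfc (fun t : ℝ => t * (max t τ)⁻¹) e ≤ τ⁻¹ • e := by
    conv_rhs => rw [← ci he, csmul _ continuous_id']
    refine cle he hf (by fun_prop) fun t ht => ?_
    rw [mul_comm]
    exact mul_le_mul_of_nonneg_right (inv_anti₀ hτ (le_max_right _ _)) ht
  have h4 : Her e (cfc (fun t : ℝ => t * (max t τ)⁻¹) e) := by
    rw [← lm he hk]
    exact (Her.refl e).mul _
  refine ⟨_, ⟨cut_nonneg τ e, h0, h1, h2⟩, h3, (sq_le_self h0 h1).trans h3, h4, ?_⟩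
  rw [← h2]
  exact h4.mul _

/-- `ψ = cfc (fun t => (√(max t δ))⁻¹) a` -/
theorem exists_psi {a : D} (ha : 0 ≤ a) {δ : ℝ} (hδ : 0 < δ) :
    ∃ ψ : D, IsSelfAdjoint ψ ∧ ψ * a * ψ * cut δ a = cut δ a := by
  have hk : Continuous fun t : ℝ => (√(max t δ))⁻¹ :=
    Continuous.inv₀ (by fun_prop) fun t => (Real.sqrt_pos.2 (hδ.trans_le (le_max_right _ _))).ne'
  refine ⟨cfc (fun t : ℝ => (√(max t δ))⁻¹) a, csa, ?_⟩
  rw [rm ha hk, cm (hk.fun_mul continuous_id') hk, cut,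
    cm ((hk.fun_mul continuous_id').fun_mul hk) (by fun_prop)]
  refine ceq ha fun t _ => ?_
  rcases le_total t δ with h | h
  · rw [max_eq_right (sub_nonpos.2 h), mul_zero]
  · have ht : 0 < t := hδ.trans_le h
    have : (√t)⁻¹ * t * (√t)⁻¹ = 1 := by
      rw [mul_right_comm, ← mul_inv, Real.mul_self_sqrt ht.le, inv_mul_cancel₀ ht.ne']
    rw [max_eq_left h, this, one_mul]

/-- `u = m (m + η)⁻¹`, `m = z z⋆`, `η = θ²`; `‖(1 - u) z‖² = ‖(1 - u) m (1 - u)‖ ≤ η` -/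
theorem exists_absorb (z : D) {θ : ℝ} (hθ : 0 < θ) :
    ∃ u k : D, u = z * k ∧ IsSelfAdjoint u ∧ ‖u‖ ≤ 1 ∧ ‖1 - u‖ ≤ 1 ∧ ‖(1 - u) * z‖ ≤ θ := by
  have hm : 0 ≤ z * star z := mul_star_self_nonneg z
  have hη : 0 < θ ^ 2 := by positivity
  have hk : Continuous fun t : ℝ => (|t| + θ ^ 2)⁻¹ :=
    Continuous.inv₀ (by fun_prop) fun t => by positivity
  have hf : Continuous fun t : ℝ => t * (|t| + θ ^ 2)⁻¹ := continuous_id'.mul hk
  have hg : Continuous fun t : ℝ => 1 - t * (|t| + θ ^ 2)⁻¹ := continuous_const.sub hf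
  have e1 : ∀ t : ℝ, 0 ≤ t → 1 - t * (|t| + θ ^ 2)⁻¹ = θ ^ 2 / (t + θ ^ 2) := fun t ht => by
    rw [abs_of_nonneg ht]
    field_simp
    ring
  have e2 : ∀ t : ℝ, 0 ≤ t → θ ^ 2 / (t + θ ^ 2) ≤ 1 := fun t ht => by
    rw [div_le_one (by positivity)]
    linarith
  refine ⟨cfc (fun t : ℝ => t * (|t| + θ ^ 2)⁻¹) (z * star z),
    star z * cfc (fun t : ℝ => (|t| + θ ^ 2)⁻¹) (z * star z), ?_, csa, ?_, ?_, ?_⟩
  · rw [← mul_assoc, lm hm hk]
  · refine cnorm hm zero_le_one fun t ht => ?_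
    rw [abs_of_nonneg (by positivity), abs_of_nonneg ht, ← div_eq_mul_inv,
      div_le_one (by positivity)]
    linarith
  · rw [osub hm hf]
    refine cnorm hm zero_le_one fun t ht => ?_
    rw [e1 t ht, abs_of_nonneg (by positivity)]
    exact e2 t ht
  · rw [osub hm hf]
    refine abs_le_of_sq_le_sq' ?_ hθ.le |>.2
    rw [sq, ← CStarRing.norm_self_mul_star, star_mul, csa.star_eq, mul_assoc, ← mul_assoc z,
      ← mul_assoc, rm hm hg, cm (hg.fun_mul continuous_id') hg]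
    refine cnorm hm hη.le fun t ht => ?_
    rw [e1 t ht, abs_of_nonneg (by positivity)]
    have h3 : θ ^ 2 / (t + θ ^ 2) * t ≤ θ ^ 2 := by
      rw [div_mul_eq_mul_div, div_le_iff₀ (by positivity)]
      nlinarith
    calc _ ≤ θ ^ 2 * 1 := mul_le_mul h3 (e2 t ht) (by positivity) hη.le
      _ = _ := mul_one _

/-- `r = G * sqrt q`, `G = cfc (fun t => (√(t + η))⁻¹) p`: `q - r⋆ p r = η (G √q)⋆ (G √q)` and
`‖G √q‖² = ‖G q G‖ ≤ ‖G p G‖ ≤ 1` -/
theorem J_of_le {p q : D} (hq : 0 ≤ q) (h : q ≤ p) : J p q := by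
  refine ⟨hq, fun ε hε => ?_⟩
  have hp : 0 ≤ p := hq.trans h
  have hη : 0 < ε / 2 := half_pos hε
  have hk := contG hη
  obtain ⟨G, hG⟩ : ∃ G, G = cfc (fun t : ℝ => (√(|t| + ε / 2))⁻¹) p := ⟨_, rfl⟩
  obtain ⟨s, hs⟩ : ∃ s, s = cfc (fun t : ℝ => √t) q := ⟨_, rfl⟩
  have hGs : IsSelfAdjoint G := hG ▸ csa
  have hss : IsSelfAdjoint s := hs ▸ csa
  have h1 : s * s = q := by
    rw [hs, cm (by fun_prop) (by fun_prop)]
    conv_rhs => rw [← ci hq]
    exact ceq hq fun t ht => Real.mul_self_sqrt ht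
  have h2 : G * p * G = cfc (fun t : ℝ => (√(|t| + ε / 2))⁻¹ * t * (√(|t| + ε / 2))⁻¹) p := by
    rw [hG, rm hp hk, cm (hk.fun_mul continuous_id') hk]
  have h3 : G * p * G = 1 - (ε / 2) • (G * G) := by
    rw [h2, hG, cm hk hk, csmul _ (hk.fun_mul hk), osub hp (continuous_const.fun_mul (hk.fun_mul hk))]
    refine ceq hp fun t ht => ?_
    rw [mul_right_comm, GG hη ht]
    field_simp
    ring
  have h4 : ‖G * p * G‖ ≤ 1 := by
    rw [h2]
    refine cnorm hp zero_le_one fun t ht => ?_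
    rw [mul_right_comm, GG hη ht, abs_of_nonneg (by positivity), mul_comm, ← div_eq_mul_inv,
      div_le_one (by positivity)]
    linarith
  have h5 : ‖star (G * s) * (G * s)‖ ≤ 1 := by
    rw [CStarRing.norm_star_mul_self, ← CStarRing.norm_self_mul_star, star_mul, hGs.star_eq,
      hss.star_eq, mul_assoc, ← mul_assoc s, h1, ← mul_assoc]
    exact (norm_mono (sa_conj_nonneg hq hGs) (sa_conj_le h hGs)).trans h4
  refine ⟨G * s, ?_⟩
  have h6 : star (G * s) * p * (G * s) - q = -((ε / 2) • (star (G * s) * (G * s))) := by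
    rw [star_mul, hGs.star_eq, hss.star_eq]
    have : s * G * p * (G * s) = s * (G * p * G) * s := by simp only [mul_assoc]
    rw [this, h3, ← h1]
    simp only [mul_sub, sub_mul, mul_one, mul_smul_comm, smul_mul_assoc, mul_assoc]
    abel
  rw [h6, norm_neg, norm_smul, Real.norm_eq_abs, abs_of_pos hη]
  nlinarith

/-- `r = cfc (fun t => (√(t + η))⁻¹) p`: `p - r p² r = η p / (p + η)` -/
theorem J_sq {p : D} (hp : 0 ≤ p) : J (p * p) p := by
  refine ⟨hp, fun ε hε => ?_⟩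
  have hη : 0 < ε / 2 := half_pos hε
  have hk := contG hη
  refine ⟨cfc (fun t : ℝ => (√(|t| + ε / 2))⁻¹) p, ?_⟩
  rw [csa.star_eq, ← mul_assoc, rm hp hk, rm hp (hk.fun_mul continuous_id'),
    cm ((hk.fun_mul continuous_id').fun_mul continuous_id') hk]
  conv_lhs => enter [1, 2]; rw [← ci hp]
  rw [csub (((hk.fun_mul continuous_id').fun_mul continuous_id').fun_mul hk) continuous_id']
  refine (cnorm hp hη.le fun t ht => ?_).trans_lt (half_lt_self hε)
  have e1 : (√(|t| + ε / 2))⁻¹ * t * t * (√(|t| + ε / 2))⁻¹ - t = -(ε / 2 * (t / (t + ε / 2))) := by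
    have : (√(|t| + ε / 2))⁻¹ * t * t * (√(|t| + ε / 2))⁻¹ =
      ((√(|t| + ε / 2))⁻¹ * (√(|t| + ε / 2))⁻¹) * t * t := by ring
    rw [this, GG hη ht]
    field_simp
    ring
  rw [e1, abs_neg, abs_of_nonneg (by positivity)]
  refine mul_le_of_le_one_right hη.le ?_
  rw [div_le_one (by positivity)]
  linarith


end Crest.Agent.R110
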