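import Crest.Agent.R110.JcB

/-! # Row 110: the element on the side of the approximate projection -/

set_option autoImplicit false
set_option linter.unusedSectionVars false

namespace Crest.Agent.R110

variable {D : Type*} [CStarAlgebra D] [PartialOrder D] [StarOrderedRing D]

/-- the element on the side of `p`. `u = V κ₂ k` from `exists_absorb (V κ₂) θ`, `v = 1 - u`,
`e₀ = p v α v p`; `α = p α p ≤ 2 e₀ + j`, `j = 2 p u α u p` is below `d₁`, `‖j‖ ≤ 72`; `r` from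
`J.exists_fac` with `‖(d₁ r)⋆ (d₁ r) - j‖ < 1/8`; `x = V d₁ r`, `x⋆ x = (d₁ r)⋆ (d₁ r)`.
`α ≤ 2 cut (1/4) e₀ + cut (1/4) (x⋆x) + 7/8`; both cuts are below `cut (1/4) e` (`J_cut_mono`,
`J_cut_star`), which is `SPI`; `Room.J_of_le`. -/
theorem osp_a {h p a α V d₁ κ₂ : D} (hh : SPI h) (hp : IsSelfAdjoint p) (hpn : ‖p‖ ≤ 6)
    (ha : Room a α) (hpα : p * α = α) (hα : J h α) (hd : J h d₁) (hκ0 : 0 ≤ κ₂) (hκ : J d₁ κ₂)
    (hV : star V * V * d₁ = d₁) {θ : ℝ} (hθ : 0 < θ) :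
    ∃ v r : D, IsSelfAdjoint v ∧ ‖v‖ ≤ 1 ∧ ‖v * (V * κ₂)‖ ≤ θ ∧ ‖V * d₁ * r‖ ^ 2 ≤ 73 ∧
      J h (p * v * α * v * p + V * d₁ * r * star (V * d₁ * r)) ∧
      J (cut (1 / 4) (p * v * α * v * p + V * d₁ * r * star (V * d₁ * r))) a := by
  obtain ⟨u, k, huk, hu, hun, hvn, hvz⟩ := exists_absorb (V * κ₂) hθ
  have hα0 : 0 ≤ α := ha.2.1
  have hαs : IsSelfAdjoint α := ha.sa'
  have hκs : IsSelfAdjoint κ₂ := IsSelfAdjoint.of_nonneg hκ0
  have hds : IsSelfAdjoint d₁ := IsSelfAdjoint.of_nonneg hd.nonneg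
  have hv : IsSelfAdjoint (1 - u) := (IsSelfAdjoint.one D).sub hu
  -- the part `j` seen by `u`
  have hj0 : J d₁ (star (u * p) * α * (u * p)) := by
    have h1 : J d₁ (star (k * p) * (κ₂ * κ₂) * (k * p)) := hκ.sq.conj _
    refine h1.of_le_smul (conj_nonneg hα0 _) (norm_nonneg (star V * α * V)) ?_
    have h2 := conj_le_norm (IsSelfAdjoint.of_nonneg (conj_nonneg hα0 V)) (κ₂ * (k * p)) le_rfl
    have e1 : star (u * p) * α * (u * p) =
        star (κ₂ * (k * p)) * (star V * α * V) * (κ₂ * (k * p)) := by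
      rw [huk]
      simp only [star_mul, mul_assoc]
    have e2 : star (k * p) * (κ₂ * κ₂) * (k * p) = star (κ₂ * (k * p)) * (κ₂ * (k * p)) := by
      simp only [star_mul, hκs.star_eq, mul_assoc]
    rw [e1, e2]
    exact h2
  have hj : J d₁ ((2 : ℝ) • (star (u * p) * α * (u * p))) := hj0.smul (by norm_num)
  have hjn : ‖(2 : ℝ) • (star (u * p) * α * (u * p))‖ ≤ 72 := by
    have h1 : ‖u * p‖ ≤ 6 := (norm_mul_le _ _).trans (by nlinarith [norm_nonneg u, norm_nonneg p])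
    have h2 : ‖star (u * p) * α‖ ≤ 6 := (norm_mul_le _ _).trans (by
      rw [norm_star]
      nlinarith [ha.norm_le, norm_nonneg α, norm_nonneg (u * p)])
    have h3 : ‖star (u * p) * α * (u * p)‖ ≤ 36 := (norm_mul_le _ _).trans (by
      nlinarith [norm_nonneg (star (u * p) * α), norm_nonneg (u * p)])
    rw [norm_smul, Real.norm_eq_abs, abs_of_pos (by norm_num : (0 : ℝ) < 2)]
    linarith
  obtain ⟨r, hr⟩ := J.exists_fac hd.nonneg hj (by norm_num : (0 : ℝ) < 1 / 8)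
  obtain ⟨j, hjd⟩ : ∃ j, j = (2 : ℝ) • (star (u * p) * α * (u * p)) := ⟨_, rfl⟩
  obtain ⟨x, hx⟩ : ∃ x, x = V * d₁ * r := ⟨_, rfl⟩
  have hxx : star x * x = star (d₁ * r) * (d₁ * r) := by
    have : star x * x = star (d₁ * r) * (star V * V * d₁) * r := by
      rw [hx]
      simp only [star_mul, mul_assoc]
    rw [this, hV, mul_assoc]
  have he0 : p * (1 - u) * α * (1 - u) * p = star ((1 - u) * p) * α * ((1 - u) * p) := by
    simp only [star_mul, hp.star_eq, hv.star_eq, mul_assoc]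
  refine ⟨1 - u, r, hv, hvn, hvz, ?_⟩
  rw [← hx, he0]
  rw [← hjd] at hj hjn hr
  rw [← hxx] at hr
  obtain ⟨e₀, he₀⟩ : ∃ e₀, e₀ = star ((1 - u) * p) * α * ((1 - u) * p) := ⟨_, rfl⟩
  have hJ0 : J h e₀ := he₀ ▸ hα.conj _
  have hJx : J h (x * star x) := by
    refine J.mul_star ?_
    have e : star (d₁ * r) * (d₁ * r) = star r * (d₁ * d₁) * r := by
      simp only [star_mul, hds.star_eq, mul_assoc]
    rw [hxx, e]
    exact hd.sq.conj _
  have hαle : α ≤ (2 : ℝ) • e₀ + j := by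
    have h1 := add_conj_le hα0 ((1 - u) * p) (u * p) (l := 1) one_pos
    have hαp : α * p = α := by
      have := congrArg star hpα
      rwa [star_mul, hp.star_eq, hαs.star_eq] at this
    have e : star ((1 - u) * p + u * p) * α * ((1 - u) * p + u * p) = α := by
      rw [← add_mul, sub_add_cancel, one_mul, hp.star_eq, hpα, hαp]
    rw [e, inv_one, one_add_one_eq_two, ← he₀, ← hjd] at h1
    exact h1
  rw [← he₀]
  have hJe : J h (e₀ + x * star x) := hh.add hJ0 hJx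
  have hs0 : IsSelfAdjoint e₀ := IsSelfAdjoint.of_nonneg hJ0.nonneg
  have hsx : IsSelfAdjoint (x * star x) := IsSelfAdjoint.of_nonneg hJx.nonneg
  have hsx' : IsSelfAdjoint (star x * x) := IsSelfAdjoint.star_mul_self x
  have hse : IsSelfAdjoint (e₀ + x * star x) := hs0.add hsx
  refine ⟨?_, hJe, ?_⟩
  · rw [norm_sq_eq]
    have := norm_le_norm_add_norm_sub' (star x * x) j
    linarith
  · have hS : SPI (cut (1 / 4) (e₀ + x * star x)) :=
      hh.of_J (hJe.trans (J_cut_self hJe.nonneg (by norm_num)))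
    have h1 : J (cut (1 / 4) (e₀ + x * star x)) (cut (1 / 4) e₀) :=
      J_cut_mono hs0 hse (le_add_of_nonneg_right hJx.nonneg) _
    have h2 : J (cut (1 / 4) (e₀ + x * star x)) (cut (1 / 4) (star x * x)) :=
      (J_cut_mono hsx hse (le_add_of_nonneg_left hJ0.nonneg) _).trans (J_cut_star x (by norm_num))
    refine ha.J_of_le (hS.add (h1.smul (t := 2) (by norm_num)) h2) (γ := 7 / 8) (by norm_num) ?_
    have h3 := smul_le (le_cut_add hs0 (1 / 4)) (t := 2) (by norm_num)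
    have h4 : j ≤ star x * x + (1 / 8 : ℝ) • (1 : D) :=
      le_add_of_norm (IsSelfAdjoint.of_nonneg hj.nonneg) hsx' (by rw [norm_sub_rev]; exact hr.le)
    have h5 := le_cut_add hsx' (1 / 4)
    calc α ≤ (2 : ℝ) • e₀ + j := hαle
      _ ≤ (2 : ℝ) • (cut (1 / 4) e₀ + (1 / 4 : ℝ) • (1 : D)) +
          (cut (1 / 4) (star x * x) + (1 / 4 : ℝ) • (1 : D) + (1 / 8 : ℝ) • (1 : D)) :=
        add_le_add h3 (h4.trans (add_le_add h5 le_rfl))
      _ = _ := by module

end Crest.Agent.R110
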