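import Crest.Agent.R110.OSPa
import Crest.Agent.R110.OSPb

/-! # Row 110: one side is an approximate projection

Notation: `z = p c r₀`, `m = z⋆ z`, `b = r₀ r₀`. -/

set_option autoImplicit false
set_option linter.unusedSectionVars false

namespace Crest.Agent.R110

variable {D : Type*} [CStarAlgebra D] [PartialOrder D] [StarOrderedRing D]

namespace OSPX

/-- `(w r₀ y)⋆ (w r₀ y) ≤ ‖w‖² (r₀ y)⋆ (r₀ y)` -/
theorem zy_le (w r₀ y : D) :
    star (w * r₀ * y) * (w * r₀ * y) ≤ (‖w‖ ^ 2) • (star (r₀ * y) * (r₀ * y)) := by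
  have h1 : IsSelfAdjoint (star w * w) := IsSelfAdjoint.star_mul_self w
  have h2 := conj_le_norm h1 (r₀ * y) (t := ‖w‖ ^ 2) (le_of_eq (norm_sq_eq w).symm)
  have h3 : star (w * r₀ * y) * (w * r₀ * y) = star (r₀ * y) * (star w * w) * (r₀ * y) := by
    simp only [star_mul, mul_assoc]
  rw [h3]; exact h2

theorem exists_theta (K t : ℝ) (ht : 0 < t) : ∃ θ : ℝ, 0 < θ ∧ θ ^ 2 * K ^ 2 ≤ t := by
  have hK : 0 < K ^ 2 + 1 := by positivity
  refine ⟨√(t / (K ^ 2 + 1)), Real.sqrt_pos.2 (by positivity), ?_⟩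
  rw [Real.sq_sqrt (by positivity), div_mul_eq_mul_div, div_le_iff₀ hK]
  nlinarith

/-- the norm bound on `r₀ ζ` -/
theorem zeta_bound {z r₀ Y w : D} {t : ℝ} (ht : 0 < t)
    (h : t • (star (r₀ * Y) * (r₀ * Y)) ≤ star (z * Y) * (z * Y)) (hx : ‖z * Y * w‖ ^ 2 ≤ 73) :
    t * ‖r₀ * (Y * w)‖ ^ 2 ≤ 73 := by
  have h1 := conj_le h w
  have e1 : star w * (t • (star (r₀ * Y) * (r₀ * Y))) * w =
      t • (star (r₀ * (Y * w)) * (r₀ * (Y * w))) := by
    simp only [star_mul, mul_assoc, mul_smul_comm, smul_mul_assoc]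
  have e2 : star w * (star (z * Y) * (z * Y)) * w = star (z * Y * w) * (z * Y * w) := by
    simp only [star_mul, mul_assoc]
  rw [e1, e2] at h1
  have h2 := norm_mono (smul_nn (star_mul_self_nonneg _) ht.le) h1
  rw [norm_smul, Real.norm_of_nonneg ht.le, ← norm_sq_eq, ← norm_sq_eq] at h2
  linarith

/-- the low vector -/
theorem low {z x A W B : D} {t : ℝ} (hA : IsSelfAdjoint A) (hAn : ‖A‖ ≤ 1) (hx : ‖x‖ ^ 2 ≤ 73)
    (hW : star (z * W) * (z * W) ≤ (2 * t) • B) :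
    star (z * W) * A * (z * W) + (2 : ℝ) • (star (star x * (z * W)) * (star x * (z * W))) +
      (146 * t) • B ≤ (440 * t) • B := by
  have h1 : star (z * W) * A * (z * W) ≤ (2 * t) • B := by
    have := conj_le_norm hA (z * W) hAn
    rw [one_smul] at this
    exact this.trans hW
  have h2 : star (star x * (z * W)) * (star x * (z * W)) ≤ (146 * t) • B := by
    have h3 := conj_le (mul_star_le x hx) (z * W)
    have e1 : star (z * W) * (x * star x) * (z * W) =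
        star (star x * (z * W)) * (star x * (z * W)) := by
      simp only [star_mul, star_star, mul_assoc]
    have e2 : star (z * W) * ((73 : ℝ) • (1 : D)) * (z * W) =
        (73 : ℝ) • (star (z * W) * (z * W)) := by
      simp only [mul_smul_comm, smul_mul_assoc, mul_one]
    rw [e1, e2] at h3
    have h4 := smul_le hW (t := 73) (by norm_num)
    have e3 : (73 : ℝ) • ((2 * t) • B) = (146 * t) • B := by module
    rw [e3] at h4
    exact h3.trans h4
  have h5 := smul_le h2 (t := 2) (by norm_num)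
  have e4 : (440 * t) • B = (2 * t) • B + (2 : ℝ) • ((146 * t) • B) + (146 * t) • B := by module
  rw [e4]
  exact add_le_add (add_le_add h1 h5) le_rfl

/-- the twin vector: `(V d₂)⋆ (v α v) (V d₂) ≤ θ² d₂ d₂` -/
theorem twin {V v α d₂ κ₂ : D} {θ : ℝ} (hv : IsSelfAdjoint v) (hα : α ≤ 1) (hd : Room d₂ κ₂)
    (hθ : ‖v * (V * κ₂)‖ ≤ θ) :
    star (V * d₂) * (v * α * v) * (V * d₂) ≤ (θ ^ 2) • (d₂ * d₂) := by
  have hκ : κ₂ * d₂ = d₂ := hd.2.2.2
  have e0 : v * (V * d₂) = v * (V * κ₂) * d₂ := by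
    rw [mul_assoc v, mul_assoc V, hκ]
  have e1 : star (V * d₂) * (v * α * v) * (V * d₂) =
      star (v * (V * d₂)) * α * (v * (V * d₂)) := by
    simp only [star_mul, hv.star_eq, mul_assoc]
  have h1 := conj_le hα (v * (V * d₂))
  rw [mul_one] at h1
  rw [e1]
  refine h1.trans ?_
  rw [e0]
  have h2 : ‖star (v * (V * κ₂)) * (v * (V * κ₂))‖ ≤ θ ^ 2 := by
    rw [← norm_sq_eq]
    exact pow_le_pow_left₀ (norm_nonneg _) hθ 2
  have h3 := conj_le_norm (IsSelfAdjoint.star_mul_self (v * (V * κ₂))) d₂ h2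
  have e2 : star (v * (V * κ₂) * d₂) * (v * (V * κ₂) * d₂) =
      star d₂ * (star (v * (V * κ₂)) * (v * (V * κ₂))) * d₂ := by
    rw [star_mul (v * (V * κ₂))]; simp only [mul_assoc]
  rw [e2]
  rw [hd.sa.star_eq] at h3 ⊢
  exact h3

end OSPX

open OSPX in
/-- `η` from `J.compact` for `gb` below `b`; `osp_twin` with `t η`; `V = z Y`; `osp_a` with `θ` such that
`θ² ‖p c‖² ≤ t`; `ζ = Y d₁ r`, `x = z ζ`, `t ‖r₀ ζ‖² ≤ ‖x‖² ≤ 73`; `q = (c r₀)⋆ e (c r₀)`.
Low vector `W' = cut 0 (2 t b - m)`: `W' m W' ≤ 2 t W' b W'` (`ray_le`), so by `osp_form`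
`W' q W' ≤ (2 + 292 + 146) t W' b W'`. Twin vector `y = Y d₂`: `x⋆ z y = 0`, and
`(z y)⋆ (v α v) (z y) ≤ θ² d₂ d₂ = θ² (z y)⋆ (z y) ≤ t (r₀ y)⋆ (r₀ y)`. Rayleigh window
`s = cut 0 (441 t b - q)`: `W'` and `d₂` are below `s b s` (`ray_self`, `ray_J`), and
`t b ≤ W' + cut 0 (m - t b)`. -/
theorem osp {h r₀ c p a α gb : D} (hh : SPI h) (hr : J h r₀) (hp : IsSelfAdjoint p)
    (hpn : ‖p‖ ≤ 6) (ha : Room a α) (hpα : p * α = α) (hα : J h α) {t ε : ℝ} (ht : 0 < t)
    (hD : ‖star c * (p - p * p) * c‖ ≤ t) (hgb : J (r₀ * r₀) gb) (hε : 0 < ε) :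
    ∃ e s : D, J h e ∧ Her p e ∧ J (cut (1 / 4) e) a ∧
      Nr gb (star (r₀ * s) * (r₀ * s)) ε ∧
      star (c * (r₀ * s)) * e * (c * (r₀ * s)) ≤ (441 * t) • (star (r₀ * s) * (r₀ * s)) := by
  have hr0 : 0 ≤ r₀ := hr.1
  have hrs : IsSelfAdjoint r₀ := IsSelfAdjoint.of_nonneg hr0
  have hrb : J r₀ (r₀ * r₀) := (J.refl hr0).sq
  have hb0 : 0 ≤ r₀ * r₀ := hrb.1
  have hbs : IsSelfAdjoint (r₀ * r₀) := IsSelfAdjoint.of_nonneg hb0
  -- `(r₀ y)⋆ (r₀ y) = y⋆ b y`
  have hby : ∀ y : D, star (r₀ * y) * (r₀ * y) = star y * (r₀ * r₀) * y := fun y => by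
    simp only [star_mul, hrs.star_eq, mul_assoc]
  have hm0 : 0 ≤ star (p * c * r₀) * (p * c * r₀) := star_mul_self_nonneg _
  have hms : IsSelfAdjoint (star (p * c * r₀) * (p * c * r₀)) := IsSelfAdjoint.of_nonneg hm0
  have hz : J r₀ (star (p * c * r₀) * (p * c * r₀)) := by
    refine hrb.of_le_smul hm0 (t := ‖p * c‖ ^ 2) (by positivity) ?_
    have := zy_le (p * c) r₀ 1
    simpa only [mul_one, hrs.star_eq] using this
  obtain ⟨η, hη, hηN⟩ := J.compact hb0 hgb hε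
  obtain ⟨Y, d₁, d₂, κ₂, hd₁, hd₂, hJd₁, hκ, hd12, hV1, hV2, hN, hY⟩ :=
    osp_twin (hh.of_J hr) hz ht (mul_pos ht hη)
  obtain ⟨θ, hθ, hθt⟩ := exists_theta ‖p * c‖ t ht
  obtain ⟨v, r, hv, hvn, hvθ, hx, hJe, hJa⟩ :=
    osp_a hh hp hpn ha hpα hα (hr.trans hJd₁) hd₂.2.1 hκ hV1 hθ
  have hd₁s : IsSelfAdjoint d₁ := IsSelfAdjoint.of_nonneg hd₁
  have hd₂s : IsSelfAdjoint d₂ := hd₂.sa
  have hxe : p * c * r₀ * Y * d₁ * r = p * c * r₀ * (Y * (d₁ * r)) := by simp only [mul_assoc]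
  have hpe : p * v * α * v * p = p * (v * α * v) * p := by simp only [mul_assoc]
  rw [hxe, hpe] at hJe hJa
  have hζ : t * ‖r₀ * (Y * (d₁ * r))‖ ^ 2 ≤ 73 := by
    refine zeta_bound ht hY ?_
    rw [← mul_assoc]; exact hx
  rw [hxe] at hx
  have hform := osp_form (A := v * α * v) hp ht hD hζ
  generalize hxdef : p * c * r₀ * (Y * (d₁ * r)) = x at hx hJe hJa hform
  generalize hedef : p * (v * α * v) * p + x * star x = e at hJe hJa hform
  have hAs : IsSelfAdjoint (v * α * v) := by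
    have := ha.sa'.conjugate v
    rwa [hv.star_eq] at this
  have hAn : ‖v * α * v‖ ≤ 1 := by
    have h1 : ‖v * α‖ ≤ 1 := (norm_mul_le _ _).trans (mul_le_one₀ hvn (norm_nonneg _) ha.norm_le)
    exact (norm_mul_le _ _).trans (mul_le_one₀ h1 (norm_nonneg _) hvn)
  -- the form `q`
  have hq0 : 0 ≤ star (c * r₀) * e * (c * r₀) := conj_nonneg hJe.1 _
  have hqs : IsSelfAdjoint (star (c * r₀) * e * (c * r₀)) := IsSelfAdjoint.of_nonneg hq0
  have hqy : ∀ y : D, star (c * (r₀ * y)) * e * (c * (r₀ * y)) =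
      star y * (star (c * r₀) * e * (c * r₀)) * y := fun y => by
    simp only [star_mul, mul_assoc]
  generalize star (c * r₀) * e * (c * r₀) = q at hq0 hqs hqy
  have hlt : 440 * t < 441 * t := by linarith
  have h441 : 0 ≤ 441 * t := by linarith
  -- the low vector
  have hW's : IsSelfAdjoint (cut 0 ((2 * t) • (r₀ * r₀) - star (p * c * r₀) * (p * c * r₀))) :=
    cut_sa _ _
  have hW'le := ray_le hbs hms (2 * t)
  have hW'self := ray_self hb0 hm0 (ρ := 2 * t) (by linarith)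
  have hW'cut := le_cut_zero ((IsSelfAdjoint.smul (IsSelfAdjoint.all (2 * t)) hbs).sub hms)
  generalize cut 0 ((2 * t) • (r₀ * r₀) - star (p * c * r₀) * (p * c * r₀)) = W' at hW's hW'le hW'self hW'cut
  have hlow : star W' * q * W' ≤ (440 * t) • (star W' * (r₀ * r₀) * W') := by
    have h1 := hform W'
    rw [hqy, hby] at h1
    refine h1.trans (low hAs hAn hx ?_)
    have e1 : star (p * c * r₀ * W') * (p * c * r₀ * W') =
        W' * (star (p * c * r₀) * (p * c * r₀)) * W' := by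
      rw [star_mul (p * c * r₀), hW's.star_eq]; simp only [mul_assoc]
    rw [e1, hW's.star_eq]
    exact hW'le
  have hJW' := (ray_J hb0 hq0 h441 hlt hlow).trans (by rw [hW's.star_eq]; exact hW'self)
  -- the twin vector
  have hzy : p * c * r₀ * (Y * d₂) = p * c * r₀ * Y * d₂ := by simp only [mul_assoc]
  have hdd : star (p * c * r₀ * (Y * d₂)) * (p * c * r₀ * (Y * d₂)) = d₂ * d₂ := by
    rw [hzy, star_mul (p * c * r₀ * Y), hd₂s.star_eq, mul_assoc d₂, ← mul_assoc (star _), hV2]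
  have hddle : d₂ * d₂ ≤ (‖p * c‖ ^ 2) • (star (Y * d₂) * (r₀ * r₀) * (Y * d₂)) := by
    rw [← hdd, ← hby]; exact zy_le _ _ _
  have hB0 : 0 ≤ star (Y * d₂) * (r₀ * r₀) * (Y * d₂) := conj_nonneg hb0 _
  have htwin : star (Y * d₂) * q * (Y * d₂) ≤
      (440 * t) • (star (Y * d₂) * (r₀ * r₀) * (Y * d₂)) := by
    have h1 := hform (Y * d₂)
    rw [hqy, hby] at h1
    have h0 : star x * (p * c * r₀ * (Y * d₂)) = 0 := by
      have e1 : star x * (p * c * r₀ * (Y * d₂)) =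
          star r * (d₁ * (star (p * c * r₀ * Y) * (p * c * r₀ * Y) * d₂)) := by
        rw [← hxdef]
        simp only [star_mul, hd₁s.star_eq, mul_assoc]
      rw [e1, hV2, hd12, mul_zero]
    rw [h0, mul_zero, smul_zero, add_zero] at h1
    have h2 := twin (V := p * c * r₀ * Y) hv ha.2.2.1 hd₂ hvθ
    rw [← hzy] at h2
    have h3 := smul_le hddle (t := θ ^ 2) (by positivity)
    rw [smul_smul] at h3
    have h4 := smul_le_smul_left' hB0 hθt
    have h5 := smul_le_smul_left' hB0 (s := t + 146 * t) (t := 440 * t) (by linarith)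
    rw [add_smul] at h5
    exact h1.trans ((add_le_add (h2.trans (h3.trans h4)) le_rfl).trans h5)
  have hJd₂ := J.of_sq hd₂.1 ((ray_J hb0 hq0 h441 hlt htwin).of_le_smul
    (by rw [← hdd]; exact star_mul_self_nonneg _) (by positivity) hddle)
  -- the Rayleigh window
  have hss : IsSelfAdjoint (cut 0 ((441 * t) • (r₀ * r₀) - q)) := cut_sa _ _
  have hsle := ray_le hbs hqs (441 * t)
  generalize cut 0 ((441 * t) • (r₀ * r₀) - q) = s at hss hsle hJW' hJd₂
  refine ⟨e, s, hJe, ?_, hJa, ?_, ?_⟩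
  · intro n hn
    rw [← hedef, ← hxdef]
    simp only [mul_add, ← mul_assoc, hn, zero_mul, add_zero]
  · rw [hby, hss.star_eq]
    refine hηN _ (Nr.of_smul ht ?_)
    obtain ⟨j, hj, hjle⟩ := hN
    have hS : SPI (s * (r₀ * r₀) * s) := hh.of_J ((hr.trans hrb).sa_conj hss)
    refine ⟨W' + j, hS.add hJW' (hJd₂.trans hj), ?_⟩
    have h1 := le_cut_zero (hms.sub (IsSelfAdjoint.smul (IsSelfAdjoint.all t) hbs))
    have h2 := add_le_add hW'cut (h1.trans hjle)
    have e1 : (2 * t) • (r₀ * r₀) - star (p * c * r₀) * (p * c * r₀) +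
        (star (p * c * r₀) * (p * c * r₀) - t • (r₀ * r₀)) = t • (r₀ * r₀) := by module
    rw [e1, ← add_assoc] at h2
    exact h2
  · rw [hqy, hby, hss.star_eq]
    exact hsle

end Crest.Agent.R110
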