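import Crest.Agent.R110.AP
import Crest.Agent.R110.OSP

/-! # Row 110: the containment case -/

set_option autoImplicit false
set_option linter.unusedSectionVars false

namespace Crest.Agent.R110

variable {D : Type*} [CStarAlgebra D] [PartialOrder D] [StarOrderedRing D]

/-- `δ` with `Nr gb (cut δ b) (ε/3)`; `room1` in `w = cut δ b` gives `(r₀, β)` with `Nr gb r₀ (2ε/3)`;
`ψ` from `exists_psi b δ`, so `ψ b ψ r₀ = r₀`; `c₀ = c ψ β`, `c₀ c₀⋆` is below `w`, and `w` is below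
`cut ε₁ g` for `g = ga + b`, `ε₁ = min ε δ` (`J.to_cut`). `ap` with `θ = t = ρ / 1764`, then `osp` with `ε/3`
(the target is below `r₀ r₀`), then `exists_unit e (1/4)`; `r = ψ r₀ s`, `c r = c₀ (r₀ s)`,
`r⋆ b r = (r₀ s)⋆ (r₀ s)`. -/
theorem cont {h b c : D} (hh : SPI h) (hb : J h b) {ρ : ℝ} (hρ : 0 < ρ) : Good h b c ρ := by
  intro ga gb ε hga hgb hε
  have hb0 : 0 ≤ b := hb.nonneg
  have hbs : IsSelfAdjoint b := IsSelfAdjoint.of_nonneg hb0
  have hε3 : 0 < ε / 3 := by positivity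
  obtain ⟨δ, hδ, j₀, hj₀, hgj₀⟩ := J.exists_cut hb0 hgb hε3
  obtain ⟨r₀, β, hR, hwβ, hJβ, hNr₀⟩ := room1 (cut_nonneg δ b) hj₀ hε3
  obtain ⟨j₁, hj₁, hgj₁⟩ := Nr.step hgj₀ hNr₀
  obtain ⟨ψ, hψ, hψb⟩ := exists_psi hb0 hδ
  have hr₀s : IsSelfAdjoint r₀ := hR.sa
  have hβs : IsSelfAdjoint β := hR.sa'
  have hψr : ψ * b * ψ * r₀ = r₀ := (hwβ.trans hR.her).unit hψb
  have hβr : β * r₀ = r₀ := hR.2.2.2
  -- the target `g`
  have hg : J h (ga + b) := hh.add hga hb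
  have hgs : IsSelfAdjoint (ga + b) := IsSelfAdjoint.of_nonneg hg.nonneg
  have hε₁ : 0 < min ε δ := lt_min hε hδ
  have hone : (0 : D) ≤ 1 := zero_le_one
  have hgw : J (cut (min ε δ) (ga + b)) (cut δ b) := by
    refine J.to_cut (J.refl (cut_nonneg _ _)) hbs ?_
    calc b ≤ ga + b := le_add_of_nonneg_left hga.nonneg
      _ ≤ cut (min ε δ) (ga + b) + (min ε δ) • (1 : D) := le_cut_add hgs _
      _ ≤ cut (min ε δ) (ga + b) + δ • (1 : D) :=
        add_le_add le_rfl (smul_le_smul_left' hone (min_le_right _ _))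
  have hc₀ : J (cut δ b) ((c * ψ * β) * star (c * ψ * β)) := by
    have h1 := (J.sq hJβ).conj (star (c * ψ))
    have e : star (star (c * ψ)) * (β * β) * star (c * ψ) =
        (c * ψ * β) * star (c * ψ * β) := by
      rw [star_star, star_mul (c * ψ) β, hβs.star_eq]
      simp only [mul_assoc]
    rwa [e] at h1
  have ht : 0 < ρ / 1764 := by positivity
  obtain ⟨p, a, α₀, hp, hpn, hhp, ha, hpα, hα₀, hag, hD⟩ := ap hh hg hε₁ ht (hgw.trans hc₀)
  have hr₀ : J h r₀ := ((hb.trans (J_cut_self hb0 hδ.le)).trans hJβ).trans hR.J_unit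
  obtain ⟨e, s, he, hpe, hea, hNs, hform⟩ :=
    osp hh hr₀ hp hpn ha hpα hα₀ ht hD ((J_sq hR.1).trans hj₁) hε3
  obtain ⟨α, hRα, hαe, hααe, heα, -⟩ := exists_unit he.nonneg (τ := 1 / 4) (by norm_num)
  have e1 : star (ψ * r₀ * s) * b * (ψ * r₀ * s) = star (r₀ * s) * (r₀ * s) := by
    have : star (ψ * r₀ * s) * b * (ψ * r₀ * s) = star s * r₀ * (ψ * b * ψ * r₀) * s := by
      rw [star_mul, star_mul, hψ.star_eq, hr₀s.star_eq]
      simp only [mul_assoc]
    rw [this, hψr, star_mul, hr₀s.star_eq]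
    simp only [mul_assoc]
  have e2 : c * (ψ * r₀ * s) = c * ψ * β * (r₀ * s) := by
    have : c * ψ * β * (r₀ * s) = c * ψ * (β * r₀) * s := by simp only [mul_assoc]
    rw [this, hβr]
    simp only [mul_assoc]
  refine ⟨cut (1 / 4) e, α, ψ * r₀ * s, hRα, (hhp.trans hpe).trans heα,
    he.of_le_smul hRα.2.1 (by norm_num) hαe, ⟨cut (min ε δ) (ga + b), hea.trans hag, ?_⟩, ?_, ?_⟩
  · calc ga ≤ ga + b := le_add_of_nonneg_right hb0
      _ ≤ cut (min ε δ) (ga + b) + (min ε δ) • (1 : D) := le_cut_add hgs _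
      _ ≤ cut (min ε δ) (ga + b) + ε • (1 : D) :=
        add_le_add le_rfl (smul_le_smul_left' hone (min_le_left _ _))
  · rw [e1]
    exact (Nr.step hgj₁ hNs).mono (by linarith)
  · rw [e1, e2]
    have h1 := conj_le hααe (c * ψ * β * (r₀ * s))
    rw [mul_smul_comm, smul_mul_assoc] at h1
    have h2 := smul_le hform (t := (1 / 4 : ℝ)⁻¹) (by norm_num)
    rw [smul_smul] at h2
    have e3 : (1 / 4 : ℝ)⁻¹ * (441 * (ρ / 1764)) = ρ := by ring
    rw [e3] at h2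
    exact h1.trans h2

end Crest.Agent.R110
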