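import Mathlib

/-!
# Row 110 (S0145): purely infinite implies strongly purely infinite — definitions

Everything happens in a unital C⋆-algebra `D` (the unitization). `J h p`: `p` is positive and Cuntz below
`h`. For properly infinite `h` this is the positive cone of the ideal generated by `h`.
-/

set_option autoImplicit false
set_option linter.unusedSectionVars false

namespace Crest.Agent.R110

variable {D : Type*} [CStarAlgebra D] [PartialOrder D] [StarOrderedRing D]

/-- properly infinite -/
def PI (h : D) : Prop :=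
  ∀ ε : ℝ, 0 < ε → ∃ r s : D,
    ‖star r * h * r - h‖ < ε ∧ ‖star s * h * s - h‖ < ε ∧ ‖star r * h * s‖ < ε

/-- `p` is positive and Cuntz subequivalent to `h` -/
def J (h p : D) : Prop := 0 ≤ p ∧ ∀ ε : ℝ, 0 < ε → ∃ r : D, ‖star r * h * r - p‖ < ε

/-- `h` is positive and everything below it is properly infinite -/
def SPI (h : D) : Prop := 0 ≤ h ∧ ∀ d, J h d → PI d

/-- the range of `x` lies in the range of `h` -/
def Her (h x : D) : Prop := ∀ n : D, n * h = 0 → n * x = 0

/-- `g` is within `ε` of the cone of `h` -/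
def Nr (g h : D) (ε : ℝ) : Prop := ∃ j, J h j ∧ g ≤ j + ε • (1 : D)

/-- a positive element `a` with a local unit `α` -/
def Room (a α : D) : Prop := 0 ≤ a ∧ 0 ≤ α ∧ α ≤ 1 ∧ α * a = a

/-- `(e - τ)₊` -/
noncomputable def cut (τ : ℝ) (e : D) : D := cfc (fun t : ℝ => max (t - τ) 0) e

/-- the interaction of `h` with the form `b` through `c` can be pushed down to `ρ` -/
def Good (h b c : D) (ρ : ℝ) : Prop :=
  ∀ (ga gb : D) (ε : ℝ), J h ga → J b gb → 0 < ε → ∃ h' α r : D, Room h' α ∧ Her h α ∧ J h α ∧
    Nr ga h' ε ∧ Nr gb (star r * b * r) ε ∧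
    star (c * r) * (α * α) * (c * r) ≤ ρ • (star r * b * r)

end Crest.Agent.R110
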