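import Crest.Agent.R110.Defs

/-! # Row 110: elementary inequalities, `Her` and `Room` -/

set_option autoImplicit false
set_option linter.unusedSectionVars false

namespace Crest.Agent.R110

variable {D : Type*} [CStarAlgebra D] [PartialOrder D] [StarOrderedRing D]

theorem conj_le {a b : D} (h : a ≤ b) (r : D) : star r * a * r ≤ star r * b * r := by sorry
theorem conj_nonneg {a : D} (h : 0 ≤ a) (r : D) : 0 ≤ star r * a * r := by sorry
theorem sa_conj_le {a b s : D} (h : a ≤ b) (hs : IsSelfAdjoint s) : s * a * s ≤ s * b * s := by sorry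
theorem sa_conj_nonneg {a s : D} (h : 0 ≤ a) (hs : IsSelfAdjoint s) : 0 ≤ s * a * s := by sorry
theorem smul_le {a b : D} (h : a ≤ b) {t : ℝ} (ht : 0 ≤ t) : t • a ≤ t • b := by sorry
theorem smul_nn {a : D} (h : 0 ≤ a) {t : ℝ} (ht : 0 ≤ t) : 0 ≤ t • a := by sorry
theorem smul_le_smul_left' {a : D} (h : 0 ≤ a) {s t : ℝ} (hst : s ≤ t) : s • a ≤ t • a := by sorry
theorem le_norm_one {a : D} (ha : IsSelfAdjoint a) {t : ℝ} (h : ‖a‖ ≤ t) : a ≤ t • (1 : D) := by sorry
theorem le_add_of_norm {a b : D} (ha : IsSelfAdjoint a) (hb : IsSelfAdjoint b) {t : ℝ}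
    (h : ‖a - b‖ ≤ t) : a ≤ b + t • (1 : D) := by sorry
theorem norm_le_of_le {a : D} (ha : 0 ≤ a) {t : ℝ} (ht : 0 ≤ t) (h : a ≤ t • (1 : D)) : ‖a‖ ≤ t := by sorry
theorem norm_mono {a b : D} (ha : 0 ≤ a) (h : a ≤ b) : ‖a‖ ≤ ‖b‖ := by sorry
theorem conj_le_norm {a : D} (ha : IsSelfAdjoint a) (r : D) {t : ℝ} (h : ‖a‖ ≤ t) :
    star r * a * r ≤ t • (star r * r) := by sorry
theorem mul_star_le (x : D) {t : ℝ} (h : ‖x‖ ^ 2 ≤ t) : x * star x ≤ t • (1 : D) := by sorry
theorem norm_sq_eq (x : D) : ‖x‖ ^ 2 = ‖star x * x‖ := by sorry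
/-- expand `0 ≤ star (l • x - y) * a * (l • x - y)` -/
theorem add_conj_le {a : D} (ha : 0 ≤ a) (x y : D) {l : ℝ} (hl : 0 < l) :
    star (x + y) * a * (x + y) ≤ (1 + l) • (star x * a * x) + (1 + l⁻¹) • (star y * a * y) := by sorry
theorem add_star_mul_le (x y : D) {l : ℝ} (hl : 0 < l) :
    star (x + y) * (x + y) ≤ (1 + l) • (star x * x) + (1 + l⁻¹) • (star y * y) := by sorry
theorem add_mul_star_le (x y : D) {l : ℝ} (hl : 0 < l) :
    (x + y) * star (x + y) ≤ (1 + l) • (x * star x) + (1 + l⁻¹) • (y * star y) := by sorry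
theorem sq_le_self {α : D} (h0 : 0 ≤ α) (h1 : α ≤ 1) : α * α ≤ α := by sorry
theorem sq_le_norm {a : D} (h0 : 0 ≤ a) : a * a ≤ ‖a‖ • a := by sorry
theorem eq_zero_of_mul_star {x : D} (h : x * star x = 0) : x = 0 := by sorry

theorem Her.refl (h : D) : Her h h := by sorry
theorem Her.trans {h x y : D} (h1 : Her h x) (h2 : Her x y) : Her h y := by sorry
theorem Her.mul {h x : D} (h1 : Her h x) (r : D) : Her h (x * r) := by sorry
theorem Her.add {h x y : D} (h1 : Her h x) (h2 : Her h y) : Her h (x + y) := by sorry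
theorem Her.sub {h x y : D} (h1 : Her h x) (h2 : Her h y) : Her h (x - y) := by sorry
theorem Her.unit {h x k : D} (h1 : Her h x) (hk : k * h = h) : k * x = x := by sorry

theorem Room.sa {a α : D} (h : Room a α) : IsSelfAdjoint a := by sorry
theorem Room.sa' {a α : D} (h : Room a α) : IsSelfAdjoint α := by sorry
theorem Room.mul_right {a α : D} (h : Room a α) : a * α = a := by sorry
theorem Room.norm_le {a α : D} (h : Room a α) : ‖α‖ ≤ 1 := by sorry
theorem Room.her {a α : D} (h : Room a α) : Her α a := by sorry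

end Crest.Agent.R110
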