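import Crest.Agent.R110.Step

/-! # Row 110: iteration and the unital theorem -/

set_option autoImplicit false
set_option linter.unusedSectionVars false

namespace Crest.Agent.R110

variable {D : Type*} [CStarAlgebra D] [PartialOrder D] [StarOrderedRing D]

/-- induction on `n` (generalizing `h b c M`): `step` with `ε/2` gives `(h', α', r)`; apply the induction
hypothesis to `(h', r⋆ b r, α' c r, 19/20 M)` with the witnesses of the two `Nr` as targets;
`α'' α' = α''` (`Her.unit`, star). -/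
theorem iter (n : ℕ) {h b c : D} (hh : SPI h) (hb : SPI b) {M : ℝ} (hM : 0 < M)
    (hc : star c * c ≤ M • b) : Good h b c ((19 / 20) ^ (n + 1) * M) := by
  induction n generalizing h b c M with
  | zero => simpa using step hh hb hM hc
  | succ n ih =>
    intro ga gb ε hga hgb hε
    obtain ⟨h', α', r, hR, hH, hJ, ⟨ja, hja, hga'⟩, ⟨jb, hjb, hgb'⟩, hle⟩ :=
      step hh hb hM hc ga gb (ε / 2) hga hgb (by positivity)
    have hJ' : J h h' := hJ.trans hR.J_unit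
    have hs1 : SPI h' := hh.of_J hJ'
    have hs2 : SPI (star r * b * r) := hb.of_J ((J.refl hb.nonneg).conj r)
    have hα' : star α' = α' := hR.sa'
    have hc' : star (α' * (c * r)) * (α' * (c * r)) ≤ (19 / 20 * M) • (star r * b * r) := by
      have e : star (α' * (c * r)) * (α' * (c * r)) = star (c * r) * (α' * α') * (c * r) := by
        rw [star_mul α', hα']; simp only [mul_assoc]
      rw [e]; exact hle
    obtain ⟨h'', α'', r'', hR', hH', hJ'', hn1, hn2, hle'⟩ :=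
      ih hs1 hs2 (by positivity : (0 : ℝ) < 19 / 20 * M) hc' ja jb (ε / 2) hja hjb (by positivity)
    have hα'' : star α'' = α'' := hR'.sa'
    have u1 : α' * α'' = α'' := hH'.unit hR.2.2.2
    have u2 : α'' * α' = α'' := by
      have := congrArg star u1
      rwa [star_mul, hα', hα''] at this
    have eb : star (r * r'') * b * (r * r'') = star r'' * (star r * b * r) * r'' := by
      rw [star_mul]; simp only [mul_assoc]
    refine ⟨h'', α'', r * r'', hR', (hH.trans hR.her).trans hH', hJ'.trans hJ'', ?_, ?_, ?_⟩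
    · have := Nr.step hga' hn1
      rwa [add_halves] at this
    · have := Nr.step hgb' hn2
      rw [add_halves] at this
      rwa [eb]
    · have e1 : star (α' * (c * r) * r'') * (α'' * α'') * (α' * (c * r) * r'') =
          star (c * (r * r'')) * ((α' * α'') * (α'' * α')) * (c * (r * r'')) := by
        simp only [star_mul, hα', mul_assoc]
      rw [e1, u1, u2] at hle'
      have e2 : (19 / 20 : ℝ) ^ (n + 1 + 1) * M = (19 / 20) ^ (n + 1) * (19 / 20 * M) := by ring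
      rw [eb, e2]
      exact hle'

/-- `δ = ε/4`, `h = cut δ a`, `ψ` from `exists_psi a δ`, `r₀ = cut δ b`, `b₁ = r₀ b r₀ ≥ δ r₀ r₀` and
`≥ r₀³` (`cut_conj`), `c₁ = ψ c r₀`, `M = (‖ψ c‖² + 1)/δ`. `iter n` with targets `h, r₀`, tolerance `δ`:
`x = h' ρ` with `x⋆ x ≈ cut δ h` (`J.exists_fac`), `s = ψ x`, `s⋆ a s = x⋆ x`; `ρ'` with
`ρ'⋆ r⋆ b₁ r ρ' ≈ cut δ r₀`, `t = r₀ r ρ'`; `s⋆ c t = x⋆ α c₁ r ρ'`, so
`‖s⋆ c t‖² ≤ (‖a‖ + ε) (‖b‖ + ε) (19/20)^(n+1) M`; choose `n` first. -/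
theorem main_unital {a b : D} (ha : SPI a) (hb : SPI b) (c : D) {ε : ℝ} (hε : 0 < ε) :
    ∃ s t : D, J a (star s * s) ∧ J b (star t * t) ∧ ‖star s * a * s - a‖ < ε ∧
      ‖star t * b * t - b‖ < ε ∧ ‖star s * c * t‖ < ε := by
  obtain ⟨δ, hδ⟩ : ∃ δ : ℝ, δ = ε / 4 := ⟨_, rfl⟩
  have hδ0 : 0 < δ := by rw [hδ]; positivity
  have ha0 := ha.nonneg
  have hb0 := hb.nonneg
  obtain ⟨ψ, hψ, hψa⟩ := exists_psi ha0 hδ0
  have hψ' : star ψ = ψ := hψ
  have hJh : J a (cut δ a) := J_cut_self ha0 hδ0.le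
  have hJr : J b (cut δ b) := J_cut_self hb0 hδ0.le
  have hna : ‖cut δ a - a‖ ≤ δ := norm_cut_sub ha0 hδ0.le
  have hnb : ‖cut δ b - b‖ ≤ δ := norm_cut_sub hb0 hδ0.le
  have hcc := cut_conj (IsSelfAdjoint.of_nonneg hb0) δ
  have hh0 : 0 ≤ cut δ a := cut_nonneg δ a
  have hr0 : 0 ≤ cut δ b := cut_nonneg δ b
  generalize cut δ a = h at *
  generalize cut δ b = r₀ at *
  have hrs : IsSelfAdjoint r₀ := IsSelfAdjoint.of_nonneg hr0
  have hrs' : star r₀ = r₀ := hrs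
  have hrr : 0 ≤ r₀ * r₀ := by
    have := star_mul_self_nonneg r₀
    rwa [hrs'] at this
  have eb₁ : r₀ * b * r₀ = r₀ * r₀ * r₀ + δ • (r₀ * r₀) := by
    rw [← hcc]; simp only [mul_sub, sub_mul, mul_smul_comm, smul_mul_assoc, mul_one]; abel
  have hS1 : SPI h := ha.of_J hJh
  have hS2 : SPI (r₀ * b * r₀) := hb.of_J ((J.refl hb0).sa_conj hrs)
  have hJ3 : J (r₀ * b * r₀) r₀ := by
    refine J.of_cube hr0 ((J.refl hS2.nonneg).of_le (cube_nonneg hr0) ?_)
    rw [eb₁]; exact le_add_of_nonneg_right (smul_nn hrr hδ0.le)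
  obtain ⟨M, hM⟩ : ∃ M : ℝ, M = (‖ψ * c‖ ^ 2 + 1) / δ := ⟨_, rfl⟩
  have hM0 : 0 < M := by rw [hM]; positivity
  have hc₁ : star (ψ * c * r₀) * (ψ * c * r₀) ≤ M • (r₀ * b * r₀) := by
    have e : star (ψ * c * r₀) * (ψ * c * r₀) = star r₀ * (star (ψ * c) * (ψ * c)) * r₀ := by
      rw [star_mul (ψ * c)]; simp only [mul_assoc]
    have h1 := conj_le_norm (IsSelfAdjoint.star_mul_self (ψ * c)) r₀
      (t := M * δ) (by rw [← norm_sq_eq, hM, div_mul_cancel₀ _ hδ0.ne']; linarith)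
    rw [e]
    refine h1.trans ?_
    rw [hrs', mul_smul]
    refine smul_le ?_ hM0.le
    rw [eb₁]; exact le_add_of_nonneg_left (cube_nonneg hr0)
  have hA : 0 < ‖a‖ + ε := by positivity
  have hB : 0 < ‖b‖ + ε := by positivity
  obtain ⟨n, hn⟩ := exists_pow_lt_of_lt_one
    (show 0 < ε ^ 2 / (M * (‖a‖ + ε) * (‖b‖ + ε)) by positivity)
    (show (19 / 20 : ℝ) < 1 by norm_num)
  obtain ⟨h', α, r, hR, hH, -, hn1, hn2, hle⟩ :=
    iter n hS1 hS2 hM0 hc₁ h r₀ δ (J.refl hh0) hJ3 hδ0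
  obtain ⟨κ, hκ⟩ : ∃ κ : ℝ, κ = (19 / 20 : ℝ) ^ (n + 1) * M := ⟨_, rfl⟩
  rw [← hκ] at hle
  have hκ0 : 0 ≤ κ := by rw [hκ]; positivity
  have hκ1 : (‖a‖ + ε) * (κ * (‖b‖ + ε)) < ε ^ 2 := by
    rw [lt_div_iff₀ (by positivity)] at hn
    have h1 : (19 / 20 : ℝ) ^ (n + 1) ≤ (19 / 20) ^ n :=
      pow_le_pow_of_le_one (by norm_num) (by norm_num) (Nat.le_succ n)
    have h2 : (0 : ℝ) ≤ M * (‖a‖ + ε) * (‖b‖ + ε) := by positivity
    have h3 := mul_le_mul_of_nonneg_right h1 h2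
    calc (‖a‖ + ε) * (κ * (‖b‖ + ε)) = (19 / 20) ^ (n + 1) * (M * (‖a‖ + ε) * (‖b‖ + ε)) := by
          rw [hκ]; ring
      _ < ε ^ 2 := lt_of_le_of_lt h3 hn
  obtain ⟨ρ₁, hρ₁⟩ := (hn1.to_cut (IsSelfAdjoint.of_nonneg hh0)).exists_fac hR.1 hδ0
  obtain ⟨ρ₂, hρ₂⟩ := (hn2.to_cut hrs).2 δ hδ0
  have hHx : Her h (h' * ρ₁) := (hH.trans hR.her).mul ρ₁
  have hαx : α * (h' * ρ₁) = h' * ρ₁ := by rw [← mul_assoc, hR.2.2.2]
  have hψx : ψ * a * ψ * (h' * ρ₁) = h' * ρ₁ := hHx.unit hψa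
  generalize h' * ρ₁ = x at *
  have hα : star α = α := hR.sa'
  have es : star (ψ * x) * a * (ψ * x) = star x * x := by
    have : star (ψ * x) * a * (ψ * x) = star x * (ψ * a * ψ * x) := by
      rw [star_mul, hψ']; simp only [mul_assoc]
    rw [this, hψx]
  have et : star (r₀ * (r * ρ₂)) * b * (r₀ * (r * ρ₂)) =
      star ρ₂ * (star r * (r₀ * b * r₀) * r) * ρ₂ := by
    simp only [star_mul, hrs', mul_assoc]
  have n1 : ‖star x * x - a‖ < ε := by
    have h1 := norm_cut_sub hh0 hδ0.le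
    have e : star x * x - a = (star x * x - cut δ h) + (cut δ h - h) + (h - a) := by abel
    have h2 := norm_add₃_le (a := star x * x - cut δ h) (b := cut δ h - h) (c := h - a)
    rw [e]; linarith
  have n2 : ‖star ρ₂ * (star r * (r₀ * b * r₀) * r) * ρ₂ - b‖ < ε := by
    have h1 := norm_cut_sub hr0 hδ0.le
    have e : star ρ₂ * (star r * (r₀ * b * r₀) * r) * ρ₂ - b =
        (star ρ₂ * (star r * (r₀ * b * r₀) * r) * ρ₂ - cut δ r₀) + (cut δ r₀ - r₀) + (r₀ - b) := by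
      abel
    have h2 := norm_add₃_le (a := star ρ₂ * (star r * (r₀ * b * r₀) * r) * ρ₂ - cut δ r₀)
      (b := cut δ r₀ - r₀) (c := r₀ - b)
    rw [e]; linarith
  refine ⟨ψ * x, r₀ * (r * ρ₂), ?_, ?_, by rw [es]; exact n1, by rw [et]; exact n2, ?_⟩
  · have h1 : J a (star x * star (star x)) := by
      rw [star_star, ← es]; exact (J.refl ha0).conj _
    have h2 := h1.mul_mid (star_mul_self_nonneg ψ)
    have e : star (ψ * x) * (ψ * x) = star x * (star ψ * ψ) * star (star x) := by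
      simp only [star_mul, star_star, mul_assoc]
    rw [e]; exact h2
  · have e : star (r₀ * (r * ρ₂)) * (r₀ * (r * ρ₂)) = star (r * ρ₂) * (r₀ * r₀) * (r * ρ₂) := by
      simp only [star_mul, hrs', mul_assoc]
    rw [e]; exact hJr.sq.conj _
  · have e : star (ψ * x) * c * (r₀ * (r * ρ₂)) = star x * (α * (ψ * c * r₀ * r) * ρ₂) := by
      conv_lhs => rw [← hαx]
      simp only [star_mul, hψ', hα, mul_assoc]
    have m1 : ‖x‖ ^ 2 ≤ ‖a‖ + ε := by
      rw [norm_sq_eq]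
      have := norm_sub_norm_le (star x * x) a
      linarith
    have m2 : ‖α * (ψ * c * r₀ * r) * ρ₂‖ ^ 2 ≤ κ * (‖b‖ + ε) := by
      rw [norm_sq_eq]
      have e2 : star (α * (ψ * c * r₀ * r) * ρ₂) * (α * (ψ * c * r₀ * r) * ρ₂) =
          star ρ₂ * (star (ψ * c * r₀ * r) * (α * α) * (ψ * c * r₀ * r)) * ρ₂ := by
        rw [star_mul, star_mul α, hα]; simp only [mul_assoc]
      have h1 := conj_le hle ρ₂
      rw [← e2, mul_smul_comm, smul_mul_assoc] at h1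
      have h2 := norm_mono (star_mul_self_nonneg _) h1
      rw [norm_smul, Real.norm_of_nonneg hκ0] at h2
      have h3 := norm_sub_norm_le (star ρ₂ * (star r * (r₀ * b * r₀) * r) * ρ₂) b
      exact h2.trans (mul_le_mul_of_nonneg_left (by linarith) hκ0)
    have m3 : ‖star x * (α * (ψ * c * r₀ * r) * ρ₂)‖ ≤ ‖x‖ * ‖α * (ψ * c * r₀ * r) * ρ₂‖ := by
      have := norm_mul_le (star x) (α * (ψ * c * r₀ * r) * ρ₂)
      rwa [norm_star] at this
    rw [e]
    refine lt_of_le_of_lt m3 (lt_of_pow_lt_pow_left₀ 2 hε.le ?_)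
    rw [mul_pow]
    exact lt_of_le_of_lt (mul_le_mul m1 m2 (by positivity) hA.le) hκ1

end Crest.Agent.R110
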