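import Crest.Agent.R110.CfcB

/-! # Row 110: the calculus of `J` and `Nr`, Rayleigh windows -/

set_option autoImplicit false
set_option linter.unusedSectionVars false

namespace Crest.Agent.R110

variable {D : Type*} [CStarAlgebra D] [PartialOrder D] [StarOrderedRing D]

theorem J.nonneg {h p : D} (h1 : J h p) : 0 ≤ p := h1.1
theorem JcX.small {r s x : D} {ε δ C : ℝ} (hx : ‖x‖ < δ) (hr : ‖r‖ ≤ C) (hs : ‖s‖ ≤ C)
    (h : C * C * δ ≤ ε) : ‖star r * x * s‖ ≤ ε := by
  have h0 := (norm_nonneg r).trans hr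
  have h1 := (norm_nonneg x).trans hx.le
  calc ‖star r * x * s‖ ≤ ‖r‖ * ‖x‖ * ‖s‖ := by
        rw [← norm_star r]
        exact norm_mul₃_le
    _ ≤ C * δ * C := by gcongr
    _ ≤ ε := by linarith

theorem JcX.delta (C : ℝ) {ε : ℝ} (hε : 0 < ε) : ∃ δ : ℝ, 0 < δ ∧ C * C * δ ≤ ε := by
  have h : 0 < C * C + 1 := by nlinarith [mul_self_nonneg C]
  refine ⟨ε / (C * C + 1), by positivity, ?_⟩
  rw [← mul_div_assoc, div_le_iff₀ h]
  linarith

theorem J.refl {h : D} (hh : 0 ≤ h) : J h h := by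
  exact J_of_le hh le_rfl
theorem J.trans {h q p : D} (h1 : J h q) (h2 : J q p) : J h p := by
  refine ⟨h2.1, fun ε hε => ?_⟩
  obtain ⟨r, hr⟩ := h2.2 (ε / 2) (by positivity)
  obtain ⟨δ, hδ, hC⟩ := JcX.delta ‖r‖ (half_pos hε)
  obtain ⟨s, hs⟩ := h1.2 δ hδ
  refine ⟨s * r, ?_⟩
  have e : star (s * r) * h * (s * r) - p =
      star r * (star s * h * s - q) * r + (star r * q * r - p) := by
    rw [star_mul]
    noncomm_ring
  rw [e]
  linarith [norm_add_le (star r * (star s * h * s - q) * r) (star r * q * r - p),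
    JcX.small hs le_rfl le_rfl hC]
theorem J.of_le {h p q : D} (h1 : J h p) (hq : 0 ≤ q) (hle : q ≤ p) : J h q := by
  exact h1.trans (J_of_le hq hle)
theorem J.conj {h p : D} (h1 : J h p) (r : D) : J h (star r * p * r) := by
  exact h1.trans ⟨conj_nonneg h1.1 r, fun ε hε => ⟨r, by simpa using hε⟩⟩
theorem J.sa_conj {h p s : D} (h1 : J h p) (hs : IsSelfAdjoint s) : J h (s * p * s) := by
  simpa only [hs.star_eq] using h1.conj s
theorem J.smul {h p : D} (h1 : J h p) {t : ℝ} (ht : 0 ≤ t) : J h (t • p) := by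
  convert h1.conj (√t • (1 : D)) using 1
  simp [smul_smul, Real.mul_self_sqrt ht]
theorem J.of_smul {h p : D} {t : ℝ} (ht : 0 < t) (h1 : J h (t • p)) : J h p := by
  simpa only [smul_smul, inv_mul_cancel₀ ht.ne', one_smul] using h1.smul (inv_pos.2 ht).le
theorem J.of_le_smul {h p q : D} (h1 : J h p) (hq : 0 ≤ q) {t : ℝ} (ht : 0 ≤ t) (hle : q ≤ t • p) :
    J h q := by
  exact (h1.smul ht).of_le hq hle
/-- with `r, s` from `PI h` use `r r₁ + s r₂` -/
theorem J.add {h p q : D} (hh : 0 ≤ h) (hP : PI h) (h1 : J h p) (h2 : J h q) : J h (p + q) := by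
  refine ⟨add_nonneg h1.1 h2.1, fun ε hε => ?_⟩
  obtain ⟨a, ha⟩ := h1.2 (ε / 6) (by positivity)
  obtain ⟨b, hb⟩ := h2.2 (ε / 6) (by positivity)
  obtain ⟨δ, hδ, hC⟩ := JcX.delta (max ‖a‖ ‖b‖) (by positivity : 0 < ε / 6)
  obtain ⟨r, s, k1, k2, k3⟩ := hP δ hδ
  have k4 : ‖star s * h * r‖ < δ := by
    rw [← norm_star]
    simpa only [star_mul, star_star, hh.isSelfAdjoint.star_eq, mul_assoc] using k3
  refine ⟨r * a + s * b, ?_⟩
  have e : star (r * a + s * b) * h * (r * a + s * b) - (p + q) =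
      star a * (star r * h * r - h) * a + star b * (star s * h * s - h) * b +
        star a * (star r * h * s) * b + star b * (star s * h * r) * a +
        (star a * h * a - p) + (star b * h * b - q) := by
    rw [star_add, star_mul, star_mul]
    noncomm_ring
  have c1 := JcX.small k1 (le_max_left ‖a‖ ‖b‖) (le_max_left _ _) hC
  have c2 := JcX.small k2 (le_max_right ‖a‖ ‖b‖) (le_max_right _ _) hC
  have c3 := JcX.small k3 (le_max_left ‖a‖ ‖b‖) (le_max_right _ _) hC
  have c4 := JcX.small k4 (le_max_right ‖a‖ ‖b‖) (le_max_left _ _) hC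
  rw [e]
  refine (norm_add_le_of_le (norm_add_le_of_le (norm_add_le_of_le (norm_add_le_of_le
    (norm_add_le_of_le c1 c2) c3) c4) le_rfl) le_rfl).trans_lt ?_
  linarith
theorem J.of_sq {h p : D} (hp : 0 ≤ p) (h1 : J h (p * p)) : J h p := by
  exact h1.trans (J_sq hp)
/-- `p⁴ = p (p p) p ≤ ‖p‖ p³` -/
theorem J.of_cube {h p : D} (hp : 0 ≤ p) (h1 : J h (p * p * p)) : J h p := by
  have h0 : 0 ≤ p * p := by simpa only [hp.isSelfAdjoint.star_eq] using star_mul_self_nonneg p
  have h2 : 0 ≤ p * p * (p * p) := by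
    simpa only [h0.isSelfAdjoint.star_eq] using star_mul_self_nonneg (p * p)
  refine J.of_sq hp (J.of_sq h0 (h1.of_le_smul h2 (norm_nonneg p) ?_))
  simpa only [mul_assoc, mul_smul_comm, smul_mul_assoc] using
    sa_conj_le (sq_le_norm hp) hp.isSelfAdjoint
theorem J.sq {h p : D} (h1 : J h p) : J h (p * p) := by
  exact h1.of_le_smul
    (by simpa only [h1.1.isSelfAdjoint.star_eq] using star_mul_self_nonneg p) (norm_nonneg p)
    (sq_le_norm h1.1)
/-- `(x x⋆)² = x (x⋆ x) x⋆` -/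
theorem J.mul_star {h x : D} (h1 : J h (star x * x)) : J h (x * star x) := by
  refine J.of_sq (mul_star_self_nonneg x) ?_
  simpa only [star_star, mul_assoc] using h1.conj (star x)
theorem J.star_mul {h x : D} (h1 : J h (x * star x)) : J h (star x * x) := by
  simpa only [star_star] using J.mul_star (x := star x) (by simpa only [star_star] using h1)
theorem J.mul_mid {h z a : D} (h1 : J h (z * star z)) (ha : 0 ≤ a) : J h (z * a * star z) := by
  refine h1.of_le_smul (by simpa only [star_star] using conj_nonneg ha (star z)) (norm_nonneg a) ?_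
  simpa only [star_star] using conj_le_norm ha.isSelfAdjoint (star z) le_rfl
/-- `p` is below `d d`, and `r⋆ (d d) r = (d r)⋆ (d r)` -/
theorem J.exists_fac {d p : D} (hd : 0 ≤ d) (h1 : J d p) {ε : ℝ} (hε : 0 < ε) :
    ∃ r : D, ‖star (d * r) * (d * r) - p‖ < ε := by
  obtain ⟨r, hr⟩ := ((J_sq hd).trans h1).2 ε hε
  exact ⟨r, by simpa only [StarMul.star_mul, hd.isSelfAdjoint.star_eq, mul_assoc] using hr⟩

end Crest.Agent.R110
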