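import Crest.Agent.R110.Jc

/-! # Row 110: cuts, `Nr`, Rayleigh windows -/

set_option autoImplicit false
set_option linter.unusedSectionVars false

namespace Crest.Agent.R110

variable {D : Type*} [CStarAlgebra D] [PartialOrder D] [StarOrderedRing D]

namespace JcBX

theorem sq_nn {a : D} (ha : IsSelfAdjoint a) : 0 ≤ a * a := by
  have := star_mul_self_nonneg a
  rwa [ha.star_eq] at this

theorem one_nn : (0 : D) ≤ 1 := by
  have := star_mul_self_nonneg (1 : D)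
  simpa using this

theorem sa_comb {b q : D} (hb : IsSelfAdjoint b) (hq : IsSelfAdjoint q) (ρ : ℝ) :
    IsSelfAdjoint (ρ • b - q) := by
  rw [IsSelfAdjoint, star_sub, star_smul, hb.star_eq, hq.star_eq, star_trivial]

theorem conj_comb (s s' b q : D) (ρ : ℝ) :
    s * (ρ • b - q) * s' = ρ • (s * b * s') - s * q * s' := by
  rw [mul_sub, sub_mul, mul_smul_comm, smul_mul_assoc]

theorem conj_add_one (s s' j : D) (γ : ℝ) :
    s * (j + γ • (1 : D)) * s' = s * j * s' + γ • (s * s') := by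
  rw [mul_add, add_mul, mul_smul_comm, smul_mul_assoc, mul_one]

end JcBX

open JcBX

/-- `k³ = k (T - δ) k ≤ k j k` for `k = cut δ T` -/
theorem J.to_cut {h j T : D} (h1 : J h j) (hT : IsSelfAdjoint T) {δ : ℝ} (hle : T ≤ j + δ • (1 : D)) :
    J h (cut δ T) := by
  have hk := cut_sa δ T
  have hle' : T - δ • (1 : D) ≤ j := sub_le_iff_le_add.mpr hle
  have h2 := sa_conj_le hle' hk
  rw [cut_conj hT δ] at h2
  exact J.of_cube (cut_nonneg δ T) ((h1.sa_conj hk).of_le (cube_nonneg (cut_nonneg δ T)) h2)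

theorem J_cut_self {e : D} (he : 0 ≤ e) {τ : ℝ} (hτ : 0 ≤ τ) : J e (cut τ e) :=
  J_of_le (cut_nonneg τ e) (cut_le he hτ)

/-- `a a = a α a` -/
theorem Room.J_unit {a α : D} (h : Room a α) : J α a := by
  have h1 := (J.refl h.2.1).sa_conj h.sa
  rw [h.mul_right] at h1
  exact J.of_sq h.1 h1

/-- `a α a = a a`, so `(1 - γ) a a ≤ a j a` -/
theorem Room.J_of_le {a α h j : D} (hr : Room a α) (h1 : J h j) {γ : ℝ} (hγ : γ < 1)
    (hle : α ≤ j + γ • (1 : D)) : J h a := by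
  have h2 := sa_conj_le hle hr.sa
  rw [hr.mul_right, conj_add_one] at h2
  have h3 : (1 - γ) • (a * a) ≤ a * j * a := by
    rw [sub_smul, one_smul]
    exact sub_le_iff_le_add.mpr h2
  have h4 : (0 : ℝ) < 1 - γ := sub_pos.mpr hγ
  exact J.of_sq hr.1 (J.of_smul h4
    ((h1.sa_conj hr.sa).of_le (smul_nn (sq_nn hr.sa) h4.le) h3))

/-- `(x⋆x)² = x⋆ (x x⋆) x ≤ x⋆ (cut τ (x x⋆)) x + τ x⋆x`; conjugate by `k = cut τ (x⋆x)`:
`k (x⋆x) (x⋆x - τ) k = k⁴ + τ k³ ≥ k⁴` (use `mul_cut`) -/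
theorem J_cut_star (x : D) {τ : ℝ} (hτ : 0 ≤ τ) :
    J (cut τ (x * star x)) (cut τ (star x * x)) := by
  have hm : IsSelfAdjoint (x * star x) := IsSelfAdjoint.mul_star_self x
  have hn : IsSelfAdjoint (star x * x) := IsSelfAdjoint.star_mul_self x
  have hk0 := cut_nonneg τ (star x * x)
  have hk := cut_sa τ (star x * x)
  have hmul := mul_cut hn τ
  have hcj := cut_conj hn τ
  have h1 := conj_le (le_cut_add hm τ) (x * cut τ (star x * x))
  have hJ := (J.refl (cut_nonneg τ (x * star x))).conj (x * cut τ (star x * x))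
  generalize cut τ (x * star x) = c at h1 hJ ⊢
  generalize cut τ (star x * x) = k at hk0 hk hmul hcj h1 hJ ⊢
  rw [conj_add_one] at h1
  have e1 : star (x * k) * (x * star x) * (x * k) - τ • (star (x * k) * (x * k))
      = k * (star x * x) * ((star x * x - τ • (1 : D)) * k) := by
    rw [star_mul, hk.star_eq]
    simp only [sub_mul, mul_sub, mul_smul_comm, smul_mul_assoc, mul_assoc, one_mul]
  have e2 : k * (star x * x) * (k * k) = k * k * (k * k) + τ • (k * k * k) := by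
    have : k * (star x * x) * (k * k)
        = k * (star x * x - τ • (1 : D)) * k * k + τ • (k * k * k) := by
      simp only [sub_mul, mul_sub, mul_smul_comm, smul_mul_assoc, mul_assoc, one_mul, mul_one,
        sub_add_cancel]
    rw [this, hcj]
    simp only [mul_assoc]
  have h2 : k * k * (k * k) ≤ star (x * k) * c * (x * k) := by
    have h3 := sub_le_iff_le_add.mpr h1
    rw [e1, hmul, e2] at h3
    exact (le_add_of_nonneg_right (smul_nn (cube_nonneg hk0) hτ)).trans h3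
  have hkk : 0 ≤ k * k := sq_nn hk
  have hkk' : IsSelfAdjoint (k * k) := IsSelfAdjoint.of_nonneg hkk
  exact J.of_sq hk0 (J.of_sq hkk (hJ.of_le (sq_nn hkk') h2))

theorem J_cut_mono {e e' : D} (he : IsSelfAdjoint e) (he' : IsSelfAdjoint e') (h : e ≤ e') (τ : ℝ) :
    J (cut τ e') (cut τ e) :=
  (J.refl (cut_nonneg τ e')).to_cut he (h.trans (le_cut_add he' τ))

theorem SPI.nonneg {h : D} (hh : SPI h) : 0 ≤ h := hh.1
theorem SPI.of_J {h d : D} (hh : SPI h) (h1 : J h d) : SPI d :=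
  ⟨h1.nonneg, fun d' hd' => hh.2 d' (h1.trans hd')⟩
theorem SPI.add {h p q : D} (hh : SPI h) (h1 : J h p) (h2 : J h q) : J h (p + q) :=
  J.add hh.1 (hh.2 h (J.refl hh.1)) h1 h2

theorem Nr.to_cut {g h : D} {ε : ℝ} (h1 : Nr g h ε) (hg : IsSelfAdjoint g) : J h (cut ε g) := by
  obtain ⟨j, hj, hle⟩ := h1
  exact hj.to_cut hg hle
theorem Nr.of_cut {g h : D} {ε : ℝ} (hg : IsSelfAdjoint g) (h1 : J h (cut ε g)) : Nr g h ε :=
  ⟨cut ε g, h1, le_cut_add hg ε⟩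
theorem Nr.mono {g h : D} {ε ε' : ℝ} (h1 : Nr g h ε) (hε : ε ≤ ε') : Nr g h ε' := by
  obtain ⟨j, hj, hle⟩ := h1
  exact ⟨j, hj, hle.trans (add_le_add le_rfl (smul_le_smul_left' one_nn hε))⟩
theorem Nr.of_le {g g' h : D} {ε : ℝ} (h1 : Nr g h ε) (hle : g' ≤ g) : Nr g' h ε := by
  obtain ⟨j, hj, hle'⟩ := h1
  exact ⟨j, hj, hle.trans hle'⟩
theorem Nr.of_J {g h h' : D} {ε : ℝ} (h1 : Nr g h ε) (h2 : J h' h) : Nr g h' ε := by
  obtain ⟨j, hj, hle⟩ := h1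
  exact ⟨j, h2.trans hj, hle⟩
theorem Nr.step {g j h : D} {ε ε' : ℝ} (hle : g ≤ j + ε • (1 : D)) (h1 : Nr j h ε') :
    Nr g h (ε + ε') := by
  obtain ⟨j', hj, hle'⟩ := h1
  refine ⟨j', hj, hle.trans ?_⟩
  have : j' + (ε + ε') • (1 : D) = j' + ε' • (1 : D) + ε • (1 : D) := by
    rw [add_smul]; abel
  rw [this]
  exact add_le_add hle' le_rfl
theorem Nr.of_smul {g h : D} {t η : ℝ} (ht : 0 < t) (h1 : Nr (t • g) h (t * η)) : Nr g h η := by
  obtain ⟨j, hj, hle⟩ := h1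
  have hi : (0 : ℝ) ≤ t⁻¹ := (inv_pos.mpr ht).le
  refine ⟨t⁻¹ • j, hj.smul hi, ?_⟩
  have h2 := smul_le hle hi
  rwa [smul_smul, smul_add, smul_smul, ← mul_assoc, inv_mul_cancel₀ ht.ne', one_smul,
    one_mul] at h2
/-- compactness: `g ≤ r⋆ h r + ε/2 ≤ r⋆ j r + η ‖r‖² + ε/2` -/
theorem J.compact {h g : D} (hh : 0 ≤ h) (h1 : J h g) {ε : ℝ} (hε : 0 < ε) :
    ∃ η : ℝ, 0 < η ∧ ∀ h' : D, Nr h h' η → Nr g h' ε := by
  obtain ⟨r, hr⟩ := h1.2 (ε / 2) (half_pos hε)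
  have hpos : (0 : ℝ) < ‖r‖ ^ 2 + 1 := by positivity
  refine ⟨ε / 2 / (‖r‖ ^ 2 + 1), by positivity, ?_⟩
  rintro h' ⟨j, hj, hle⟩
  have h2 : g ≤ star r * h * r + (ε / 2) • (1 : D) := by
    refine le_add_of_norm (IsSelfAdjoint.of_nonneg h1.1)
      (IsSelfAdjoint.of_nonneg (conj_nonneg hh r)) ?_
    rw [norm_sub_rev]; exact hr.le
  have h3 := conj_le hle r
  rw [conj_add_one] at h3
  have h4 : star r * r ≤ (‖r‖ ^ 2 + 1) • (1 : D) := by
    have := mul_star_le (star r) (t := ‖r‖ ^ 2 + 1) (by rw [norm_star]; linarith)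
    rwa [star_star] at this
  have h5 := smul_le h4 (t := ε / 2 / (‖r‖ ^ 2 + 1)) (by positivity)
  rw [smul_smul, div_mul_cancel₀ _ hpos.ne'] at h5
  have h6 : Nr (star r * h * r) h' (ε / 2) :=
    ⟨star r * j * r, hj.conj r, h3.trans (add_le_add le_rfl h5)⟩
  have h7 := Nr.step h2 h6
  rwa [add_halves] at h7
theorem J.exists_cut {h g : D} (hh : 0 ≤ h) (h1 : J h g) {ε : ℝ} (hε : 0 < ε) :
    ∃ τ : ℝ, 0 < τ ∧ Nr g (cut τ h) ε := by
  obtain ⟨η, hη, H⟩ := J.compact hh h1 hε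
  exact ⟨η, hη, H _ (Nr.of_cut (IsSelfAdjoint.of_nonneg hh) (J.refl (cut_nonneg η h)))⟩

/-- Rayleigh window `s = (ρ b - q)₊`: `0 ≤ s³ = ρ s b s - s q s` -/
theorem ray_le {b q : D} (hb : IsSelfAdjoint b) (hq : IsSelfAdjoint q) (ρ : ℝ) :
    cut 0 (ρ • b - q) * q * cut 0 (ρ • b - q) ≤ ρ • (cut 0 (ρ • b - q) * b * cut 0 (ρ • b - q)) := by
  have h1 := cut_conj_zero (sa_comb hb hq ρ)
  have h2 := cube_nonneg (cut_nonneg 0 (ρ • b - q))
  rw [← h1, conj_comb] at h2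
  exact sub_nonneg.mp h2
/-- `s³ ≤ ρ s b s` -/
theorem ray_self {b q : D} (hb : 0 ≤ b) (hq : 0 ≤ q) {ρ : ℝ} (hρ : 0 ≤ ρ) :
    J (cut 0 (ρ • b - q) * b * cut 0 (ρ • b - q)) (cut 0 (ρ • b - q)) := by
  have h1 := cut_conj_zero (sa_comb (IsSelfAdjoint.of_nonneg hb) (IsSelfAdjoint.of_nonneg hq) ρ)
  have hs := cut_sa 0 (ρ • b - q)
  have hs0 := cut_nonneg 0 (ρ • b - q)
  rw [conj_comb] at h1
  refine J.of_cube hs0 ((J.refl (sa_conj_nonneg hb hs)).of_le_smul (cube_nonneg hs0) hρ ?_)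
  rw [← h1]
  exact sub_le_self _ (sa_conj_nonneg hq hs)
/-- `(ρ - ρ₁) y⋆ b y ≤ y⋆ (ρ b - q) y ≤ y⋆ s y`, then `ray_self` -/
theorem ray_J {b q y : D} (hb : 0 ≤ b) (hq : 0 ≤ q) {ρ₁ ρ : ℝ} (hρ : 0 ≤ ρ) (h1 : ρ₁ < ρ)
    (hy : star y * q * y ≤ ρ₁ • (star y * b * y)) :
    J (cut 0 (ρ • b - q) * b * cut 0 (ρ • b - q)) (star y * b * y) := by
  have hd : (0 : ℝ) < ρ - ρ₁ := sub_pos.mpr h1
  have h2 := conj_le
    (le_cut_zero (sa_comb (IsSelfAdjoint.of_nonneg hb) (IsSelfAdjoint.of_nonneg hq) ρ)) y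
  rw [conj_comb] at h2
  have h3 : (ρ - ρ₁) • (star y * b * y) ≤ star y * cut 0 (ρ • b - q) * y := by
    rw [sub_smul]
    exact (sub_le_sub_left hy _).trans h2
  exact J.of_smul hd (((ray_self hb hq hρ).conj y).of_le (smul_nn (conj_nonneg hb y) hd.le) h3)

end Crest.Agent.R110
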