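import Crest.Agent.R110.Rooms

/-! # Row 110: twins and the interaction form

Notation: `z = p c r₀`, `m = z⋆ z`, `b = r₀ r₀`. -/

set_option autoImplicit false
set_option linter.unusedSectionVars false

namespace Crest.Agent.R110

variable {D : Type*} [CStarAlgebra D] [PartialOrder D] [StarOrderedRing D]

/-- twins. `W = cut 0 (m - t b)`, `n = (z W)⋆ (z W) = W m W ≥ W³`, so `W` is below `n` (and `n` is below `r₀`,
so it is `SPI`). `σ` with `Nr W (cut σ n) (η/2)`, `rooms2` in `cut σ n` with `η/2`: `(d₂, κ₂)` is the first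
room, `(d₁, _)` the second. `ψ` from `exists_psi n σ`, `Y = W ψ`: `(z Y)⋆ (z Y) = ψ n ψ` is a unit for both
rooms. The last inequality is `W (m - t b) W = W³ ≥ 0` conjugated by `ψ`. -/
theorem osp_twin {z r₀ : D} (hr : SPI r₀) (hz : J r₀ (star z * z)) {t η : ℝ} (ht : 0 < t)
    (hη : 0 < η) :
    ∃ Y d₁ d₂ κ₂ : D, 0 ≤ d₁ ∧ Room d₂ κ₂ ∧ J r₀ d₁ ∧ J d₁ κ₂ ∧ d₁ * d₂ = 0 ∧
      star (z * Y) * (z * Y) * d₁ = d₁ ∧ star (z * Y) * (z * Y) * d₂ = d₂ ∧
      Nr (cut 0 (star z * z - t • (r₀ * r₀))) d₂ η ∧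
      t • (star (r₀ * Y) * (r₀ * Y)) ≤ star (z * Y) * (z * Y) := by
  have r1 : star r₀ = r₀ := (IsSelfAdjoint.of_nonneg hr.nonneg).star_eq
  have hT : IsSelfAdjoint (star z * z - t • (r₀ * r₀)) := by
    simp only [IsSelfAdjoint, star_sub, star_mul, star_star, star_smul, r1, star_trivial]
  have c3 := cut_conj_zero hT
  have w0 := cut_nonneg 0 (star z * z - t • (r₀ * r₀))
  have w1 := cut_sa 0 (star z * z - t • (r₀ * r₀))
  generalize cut 0 (star z * z - t • (r₀ * r₀)) = W at *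
  have e1 : W * (star z * z) * W = W * W * W + t • (W * (r₀ * r₀) * W) := by
    rw [← c3]
    simp only [mul_sub, sub_mul, mul_smul_comm, smul_mul_assoc, sub_add_cancel]
  have b0 : 0 ≤ t • (W * (r₀ * r₀) * W) :=
    smul_nn (sa_conj_nonneg (by simpa only [r1] using star_mul_self_nonneg r₀) w1) ht.le
  have n1 : J r₀ (W * (star z * z) * W) := hz.sa_conj w1
  have n2 : J (W * (star z * z) * W) W :=
    J.of_cube w0 (J_of_le (cube_nonneg w0) (by rw [e1]; exact le_add_of_nonneg_right b0))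
  have n3 : t • (W * (r₀ * r₀) * W) ≤ W * (star z * z) * W := by
    rw [e1]; exact le_add_of_nonneg_left (cube_nonneg w0)
  obtain ⟨σ, hσ, j, j1, j2⟩ := J.exists_cut n1.nonneg n2 (half_pos hη)
  have k1 := n1.trans (J_cut_self n1.nonneg hσ.le)
  obtain ⟨a₀, α₀, a₁, α₁, R0, R1, H0, H1, -, J1, o, J2, N0, -⟩ :=
    rooms2 (hr.of_J k1) j1 (half_pos hη)
  obtain ⟨ψ, p1, p2⟩ := exists_psi n1.nonneg hσ
  have e2 : star (z * (W * ψ)) * (z * (W * ψ)) = ψ * (W * (star z * z) * W) * ψ := by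
    simp only [star_mul, p1.star_eq, w1.star_eq, mul_assoc]
  have e3 : t • (star (r₀ * (W * ψ)) * (r₀ * (W * ψ))) = ψ * (t • (W * (r₀ * r₀) * W)) * ψ := by
    simp only [star_mul, p1.star_eq, w1.star_eq, r1, mul_assoc, mul_smul_comm, smul_mul_assoc]
  have o' : α₁ * α₀ = 0 := by
    have := congrArg star o
    rwa [star_mul, R0.sa'.star_eq, R1.sa'.star_eq, star_zero] at this
  refine ⟨W * ψ, a₁, a₀, α₀, R1.1, R0, (k1.trans J1).trans R1.J_unit, J2, ?_, ?_, ?_, ?_, ?_⟩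
  · rw [← R1.mul_right, ← R0.2.2.2, mul_assoc, ← mul_assoc α₁, o', zero_mul, mul_zero]
  · rw [e2]; exact (H1.trans R1.her).unit p2
  · rw [e2]; exact (H0.trans R0.her).unit p2
  · simpa only [add_halves] using Nr.step j2 N0
  · rw [e2, e3]; exact sa_conj_le n3 p1

/-- the interaction form. With `x = p c r₀ ζ`:
`x⋆ c r₀ y = x⋆ (p c r₀ y) + (r₀ ζ)⋆ D₀ (r₀ y)`, `D₀ = c⋆ (p - p²) c`; `add_star_mul_le` with `l = 1`,
and `(r₀ y)⋆ D₀ (r₀ ζ) (r₀ ζ)⋆ D₀ (r₀ y) ≤ t² ‖r₀ ζ‖² (r₀ y)⋆ (r₀ y)`. -/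
theorem osp_form {p c r₀ ζ A : D} (hp : IsSelfAdjoint p) {t : ℝ} (ht : 0 < t)
    (hD : ‖star c * (p - p * p) * c‖ ≤ t) (hζ : t * ‖r₀ * ζ‖ ^ 2 ≤ 73) (y : D) :
    star (c * (r₀ * y)) * (p * A * p + p * c * r₀ * ζ * star (p * c * r₀ * ζ)) * (c * (r₀ * y)) ≤
      star (p * c * r₀ * y) * A * (p * c * r₀ * y) +
        (2 : ℝ) • (star (star (p * c * r₀ * ζ) * (p * c * r₀ * y)) *
          (star (p * c * r₀ * ζ) * (p * c * r₀ * y))) +
        (146 * t) • (star (r₀ * y) * (r₀ * y)) := by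
  have e1 : star (c * (r₀ * y)) * (p * A * p + p * c * r₀ * ζ * star (p * c * r₀ * ζ)) *
      (c * (r₀ * y)) = star (p * c * r₀ * y) * A * (p * c * r₀ * y) +
      star (star (p * c * r₀ * ζ) * (p * c * r₀ * y) +
        star (r₀ * ζ) * (star c * (p - p * p) * c) * (r₀ * y)) *
      (star (p * c * r₀ * ζ) * (p * c * r₀ * y) +
        star (r₀ * ζ) * (star c * (p - p * p) * c) * (r₀ * y)) := by
    simp only [star_mul, star_add, star_sub, star_star, hp.star_eq]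
    noncomm_ring
  have h1 := add_star_mul_le (star (p * c * r₀ * ζ) * (p * c * r₀ * y))
    (star (r₀ * ζ) * (star c * (p - p * p) * c) * (r₀ * y)) one_pos
  have h2 : ‖star (r₀ * ζ) * (star c * (p - p * p) * c)‖ ≤ ‖r₀ * ζ‖ * t :=
    (norm_mul_le _ _).trans (by rw [norm_star]; exact mul_le_mul_of_nonneg_left hD (norm_nonneg _))
  generalize star (r₀ * ζ) * (star c * (p - p * p) * c) = e at *
  have h3 : ‖star e * e‖ ≤ 73 * t := by
    rw [← norm_sq_eq]
    refine (pow_le_pow_left₀ (norm_nonneg _) h2 2).trans ?_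
    nlinarith [mul_le_mul_of_nonneg_right hζ ht.le]
  have h4 := smul_le (conj_le_norm (IsSelfAdjoint.star_mul_self e) (r₀ * y) h3) zero_le_two
  rw [smul_smul, show (2 : ℝ) * (73 * t) = 146 * t by ring] at h4
  rw [inv_one, one_add_one_eq_two] at h1
  rw [e1, add_assoc]
  refine add_le_add le_rfl (h1.trans (add_le_add le_rfl (le_of_eq_of_le ?_ h4)))
  simp only [star_mul, mul_assoc]

end Crest.Agent.R110
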