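import Crest.Agent.R110.JcB

/-! # Row 110: orthogonal rooms -/

set_option autoImplicit false
set_option linter.unusedSectionVars false

namespace Crest.Agent.R110

variable {D : Type*} [CStarAlgebra D] [PartialOrder D] [StarOrderedRing D]

namespace RoomsX

theorem sa_of {a : D} (h : 0 ≤ a) : star a = a := (IsSelfAdjoint.of_nonneg h).star_eq

theorem swap0 {a b : D} (ha : 0 ≤ a) (hb : 0 ≤ b) (h : a * b = 0) : b * a = 0 := by
  have := congrArg star h
  rwa [star_mul, sa_of ha, sa_of hb, star_zero] at this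

theorem sa_diff (x y : D) : IsSelfAdjoint (x * star x - y * star y) :=
  (IsSelfAdjoint.mul_star_self x).sub (IsSelfAdjoint.mul_star_self y)

theorem half {x y k : D} (hk : IsSelfAdjoint k) {δ η : ℝ} (hδ : 0 ≤ δ)
    (h1 : ‖star x * x - k‖ ≤ δ) (h2 : ‖star x * y‖ ≤ δ) (h3 : δ * (2 * ‖k‖ + 2 * δ) ≤ η) :
    Nr (k * k) (cut 0 (x * star x - y * star y)) η := by
  have hd := sa_diff x y
  refine ⟨star x * cut 0 (x * star x - y * star y) * x, (J.refl (cut_nonneg _ _)).conj x, ?_⟩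
  have hsa : IsSelfAdjoint (k * k) := by
    have := IsSelfAdjoint.mul_star_self k
    rwa [hk.star_eq] at this
  have hsa2 : IsSelfAdjoint (star x * (x * star x - y * star y) * x) := hd.conjugate' x
  have e : k * k - star x * (x * star x - y * star y) * x =
      (star x * y) * star (star x * y) - (star x * x - k) * (star x * x - k)
        - (star x * x - k) * k - k * (star x * x - k) := by
    simp only [star_mul, star_star]
    noncomm_ring
  have hn : ‖k * k - star x * (x * star x - y * star y) * x‖ ≤ η := by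
    rw [e]
    have a1 : ‖(star x * y) * star (star x * y)‖ ≤ δ * δ :=
      (norm_mul_le _ _).trans (by rw [norm_star]; exact mul_le_mul h2 h2 (norm_nonneg _) hδ)
    have a2 : ‖(star x * x - k) * (star x * x - k)‖ ≤ δ * δ :=
      (norm_mul_le _ _).trans (mul_le_mul h1 h1 (norm_nonneg _) hδ)
    have a3 : ‖(star x * x - k) * k‖ ≤ δ * ‖k‖ :=
      (norm_mul_le _ _).trans (mul_le_mul_of_nonneg_right h1 (norm_nonneg _))
    have a4 : ‖k * (star x * x - k)‖ ≤ ‖k‖ * δ :=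
      (norm_mul_le _ _).trans (mul_le_mul_of_nonneg_left h1 (norm_nonneg _))
    have b1 := norm_sub_le ((star x * y) * star (star x * y) - (star x * x - k) * (star x * x - k)
        - (star x * x - k) * k) (k * (star x * x - k))
    have b2 := norm_sub_le ((star x * y) * star (star x * y) - (star x * x - k) * (star x * x - k))
        ((star x * x - k) * k)
    have b3 := norm_sub_le ((star x * y) * star (star x * y)) ((star x * x - k) * (star x * x - k))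
    nlinarith
  exact (le_add_of_norm hsa hsa2 hn).trans
    (add_le_add (conj_le (le_cut_zero hd) x) le_rfl)

theorem J_half {h : D} (hh : 0 ≤ h) (r y : D) :
    J h (cut 0 (h * r * star (h * r) - y * star y)) := by
  have h1 : J h (h * star h) := by
    rw [sa_of hh]
    exact (J.refl hh).sq
  have h2 := h1.mul_mid (mul_star_self_nonneg r)
  refine h2.to_cut (sa_diff _ _) ?_
  have e : h * r * star (h * r) = h * (r * star r) * star h := by
    simp only [star_mul, mul_assoc]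
  rw [e, zero_smul, add_zero]
  exact sub_le_self _ (mul_star_self_nonneg y)

theorem her_half (h r s : D) :
    Her h (cut 0 (h * r * star (h * r) - h * s * star (h * s))) :=
  ((((Her.refl h).mul r).mul _).sub (((Her.refl h).mul s).mul _)).trans (her_cut_zero (sa_diff _ _))

end RoomsX

open RoomsX

/-- `g` is below `h⁴ = (h h) (h h)` (`J.of_sq` twice); take `η` from `J.compact` for `h⁴`. `h h` is properly
infinite: `r, s`; `w₁ = h r`, `w₂ = h s`, so `wᵢ⋆ wᵢ ≈ h h`, `w₁⋆ w₂ ≈ 0`. `d = w₁ w₁⋆ - w₂ w₂⋆`,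
`d₁ = cut 0 d`, `d₂ = cut 0 (-d)`. `w₁⋆ d₁ w₁ ≥ w₁⋆ d w₁ = (w₁⋆w₁)² - (w₁⋆w₂)(w₁⋆w₂)⋆ ≥ h⁴ - η`.
`J h d₁` by `J.to_cut` (`d ≤ w₁ w₁⋆ + 0`, `J.mul_mid`), `Her` by `her_cut_zero`. -/
theorem split {h g : D} (hh : SPI h) (hg : J h g) {ε : ℝ} (hε : 0 < ε) :
    ∃ d₁ d₂ : D, J h d₁ ∧ J h d₂ ∧ d₁ * d₂ = 0 ∧ Her h d₁ ∧ Her h d₂ ∧ Nr g d₁ ε ∧ Nr g d₂ ε := by
  have h0 := hh.1
  have hk0 : 0 ≤ h * h := ((J.refl h0).sq).1
  have hkk : J (h * h * (h * h)) g := (J_sq hk0).trans ((J_sq h0).trans hg)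
  obtain ⟨η, hη, hc⟩ := J.compact ((J.refl hk0).sq).1 hkk hε
  have hN : 0 < 2 * ‖h * h‖ + 2 := by positivity
  set δ : ℝ := min 1 (η / (2 * ‖h * h‖ + 2)) with hδ
  have hδ0 : 0 < δ := lt_min one_pos (div_pos hη hN)
  have hδ1 : δ ≤ 1 := min_le_left _ _
  have hδ2 : δ * (2 * ‖h * h‖ + 2) ≤ η := (le_div_iff₀ hN).1 (min_le_right _ _)
  have hδ3 : δ * (2 * ‖h * h‖ + 2 * δ) ≤ η := by nlinarith
  obtain ⟨r, s, hr, hs, hrs⟩ := hh.2 (h * h) (J.refl h0).sq δ hδ0
  have e : ∀ a b : D, star (h * a) * (h * b) = star a * (h * h) * b := fun a b => by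
    simp only [star_mul, sa_of h0, mul_assoc]
  have hsr : ‖star (h * s) * (h * r)‖ ≤ δ := by
    rw [← norm_star, star_mul, star_star, e]
    exact hrs.le
  have hksa : IsSelfAdjoint (h * h) := IsSelfAdjoint.of_nonneg hk0
  refine ⟨cut 0 (h * r * star (h * r) - h * s * star (h * s)),
    cut 0 (h * s * star (h * s) - h * r * star (h * r)), J_half h0 _ _, J_half h0 _ _, ?_,
    her_half _ _ _, her_half _ _ _, hc _ ?_, hc _ ?_⟩
  · have := cut_orth (sa_diff (h * r) (h * s))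
    rwa [neg_sub] at this
  · exact half hksa hδ0.le (by rw [e]; exact hr.le) (by rw [e]; exact hrs.le) hδ3
  · exact half hksa hδ0.le (by rw [e]; exact hs.le) hsr hδ3

/-- `J.exists_cut`, then `exists_unit` -/
theorem room1 {h g : D} (hh : 0 ≤ h) (hg : J h g) {ε : ℝ} (hε : 0 < ε) :
    ∃ a α : D, Room a α ∧ Her h α ∧ J h α ∧ Nr g a ε := by
  obtain ⟨τ, hτ, hn⟩ := J.exists_cut hh hg hε
  obtain ⟨α, hr, h1, -, h2, -⟩ := exists_unit hh hτ
  exact ⟨cut τ h, α, hr, h2, (J.refl hh).of_le_smul hr.2.1 (inv_nonneg.2 hτ.le) h1, hn⟩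

/-- `η` from `J.compact` for `w` below `w w w`; `r` from `J.exists_fac` with `(d r)⋆ (d r) ≈ w`;
`x = d r w`, `d' = x x⋆`: `x⋆ x = w (d r)⋆ (d r) w ≈ w w w`, it is below `w` and below `d'`. -/
theorem cut_into {d w : D} (hd : 0 ≤ d) (hw : J d w) {ε : ℝ} (hε : 0 < ε) :
    ∃ d' : D, Her d d' ∧ J w d' ∧ J d d' ∧ Nr w d' ε := by
  have w0 := hw.1
  have hc3 : 0 ≤ w * w * w := cube_nonneg w0
  obtain ⟨η, hη, hc⟩ := J.compact hc3 (J.of_cube w0 (J.refl hc3)) hε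
  have hN : 0 < ‖w‖ * ‖w‖ + 1 := by positivity
  obtain ⟨r, hr⟩ := J.exists_fac hd hw (div_pos hη hN)
  have e : star (d * r * w) * (d * r * w) = w * (star (d * r) * (d * r)) * star w := by
    simp only [star_mul, sa_of w0, mul_assoc]
  have h1 : J w (star (d * r * w) * (d * r * w)) := by
    rw [e]
    refine J.mul_mid ?_ (star_mul_self_nonneg _)
    rw [sa_of w0]
    exact (J.refl w0).sq
  have h2 : J w (d * r * w * star (d * r * w)) := h1.mul_star
  refine ⟨d * r * w * star (d * r * w), (((Her.refl d).mul r).mul w).mul _, h2, hw.trans h2,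
    hc _ ⟨star (d * r * w) * (d * r * w), (J.refl h2.1).star_mul, ?_⟩⟩
  refine le_add_of_norm (IsSelfAdjoint.of_nonneg hc3) (IsSelfAdjoint.star_mul_self _) ?_
  have e2 : w * w * w - star (d * r * w) * (d * r * w) =
      -(w * (star (d * r) * (d * r) - w) * w) := by
    rw [e, sa_of w0]
    noncomm_ring
  rw [e2, norm_neg]
  have a1 : ‖w * (star (d * r) * (d * r) - w) * w‖ ≤ ‖w‖ * ‖star (d * r) * (d * r) - w‖ * ‖w‖ :=
    (norm_mul_le _ _).trans (mul_le_mul_of_nonneg_right (norm_mul_le _ _) (norm_nonneg _))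
  have a2 := (lt_div_iff₀ hN).1 hr
  have a3 := norm_nonneg (star (d * r) * (d * r) - w)
  nlinarith

/-- `split` with `ε/4`; `room1` in `d₁` gives `(a₁, α₁)` with `Nr g a₁ (ε/2)`; `w = cut (ε/2) g` is below
`a₁` and `d₂`; `cut_into` gives `d'` in `d₂`, below `w`; `room1` in `d'` gives `(a₀, α₀)`.
`d₂ d₁ = 0` gives `d₂ α₁ = 0`, so `α₁ d₂ = 0` (star), `α₁ d' = 0`, `α₁ α₀ = 0`. -/
theorem rooms2 {h g : D} (hh : SPI h) (hg : J h g) {ε : ℝ} (hε : 0 < ε) :
    ∃ a₀ α₀ a₁ α₁ : D, Room a₀ α₀ ∧ Room a₁ α₁ ∧ Her h α₀ ∧ Her h α₁ ∧ J h α₀ ∧ J h α₁ ∧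
      α₀ * α₁ = 0 ∧ J a₁ α₀ ∧ Nr g a₀ ε ∧ Nr g a₁ ε := by
  have hε4 : 0 < ε / 4 := by positivity
  have hg' : IsSelfAdjoint g := IsSelfAdjoint.of_nonneg hg.1
  obtain ⟨d₁, d₂, j1, j2, ho, r1, r2, ⟨j, hj, hgj⟩, n2⟩ := split hh hg hε4
  obtain ⟨a₁, α₁, R1, H1, J1, N1⟩ := room1 j1.1 hj hε4
  have N1' : Nr g a₁ (ε / 2) := (Nr.step hgj N1).mono (by linarith)
  have w1 : J a₁ (cut (ε / 2) g) := N1'.to_cut hg'
  have w2 : J d₂ (cut (ε / 2) g) := (n2.mono (by linarith)).to_cut hg'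
  obtain ⟨d', Hd, Jw, Jd, ⟨j', hj', hwj⟩⟩ := cut_into j2.1 w2 hε4
  obtain ⟨a₀, α₀, R0, H0, J0, N0⟩ := room1 Jd.1 hj' hε4
  refine ⟨a₀, α₀, a₁, α₁, R0, R1, r2.trans (Hd.trans H0), r1.trans H1, j2.trans (Jd.trans J0),
    j1.trans J1, ?_, w1.trans (Jw.trans J0),
    (Nr.step (le_cut_add hg' (ε / 2)) (Nr.step hwj N0)).mono (by linarith),
    N1'.mono (by linarith)⟩
  exact swap0 R1.2.1 R0.2.1 (H0 _ (Hd _ (swap0 j2.1 R1.2.1 (H1 _ (swap0 j1.1 j2.1 ho)))))

end Crest.Agent.R110
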