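import Crest.Agent.R110.JcB

/-! # Row 110: sum of two orthogonal pieces -/

set_option autoImplicit false
set_option linter.unusedSectionVars false

namespace Crest.Agent.R110

variable {D : Type*} [CStarAlgebra D] [PartialOrder D] [StarOrderedRing D]

namespace StepAX

theorem piece {a α g u : D} (h : Room a α) (hu : Room g u) (hJ : J a u) :
    ∃ x : D, α * x = x ∧ x * star x ≤ (9 / 8 : ℝ) • (α * α) ∧
      u ≤ star x * x + (1 / 8 : ℝ) • (1 : D) := by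
  obtain ⟨r, hr⟩ := hJ.exists_fac h.1 (ε := 1 / 8) (by norm_num)
  have hx : α * (a * r) = a * r := by rw [← mul_assoc, h.2.2.2]
  refine ⟨a * r, hx, ?_, ?_⟩
  · have hn : ‖a * r‖ ^ 2 ≤ 9 / 8 := by
      rw [norm_sq_eq]
      have h1 : ‖star (a * r) * (a * r)‖ ≤ ‖star (a * r) * (a * r) - u‖ + ‖u‖ := by
        simpa using norm_add_le (star (a * r) * (a * r) - u) u
      have h2 := hu.norm_le
      linarith
    have h1 := sa_conj_le (mul_star_le (a * r) hn) h.sa'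
    have hs : star (a * r) * α = star (a * r) := by
      have := congrArg star hx
      rwa [star_mul α, h.sa'.star_eq] at this
    have e1 : α * (a * r * star (a * r)) * α = a * r * star (a * r) := by
      rw [← mul_assoc α, hx, mul_assoc (a * r), hs]
    have e2 : α * ((9 / 8 : ℝ) • (1 : D)) * α = (9 / 8 : ℝ) • (α * α) := by
      simp
    rwa [e1, e2] at h1
  · refine le_add_of_norm hu.sa' (IsSelfAdjoint.star_mul_self _) ?_
    rw [norm_sub_rev]; exact hr.le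

end StepAX

/-- two orthogonal pieces. `xᵢ = aᵢ ρᵢ` from `J.exists_fac` with `‖xᵢ⋆ xᵢ - u‖ < 1/8`; `x₀⋆ x₁ = 0`,
`e = (x₀ + x₁) (x₀ + x₁)⋆`; `xᵢ xᵢ⋆ = αᵢ xᵢ xᵢ⋆ αᵢ ≤ (9/8) αᵢ αᵢ`; `add_mul_star_le` with `l = 1/9` and
`l = 9`. `2 u ≤ x⋆ x + 1/4 ≤ cut (3/2) (x⋆x) + 7/4`, `J_cut_star`, `Room.J_of_le` with `γ = 7/8`. -/
theorem step_sum {a₀ α₀ a₁ α₁ g u : D} (h0 : Room a₀ α₀) (h1 : Room a₁ α₁) (ho : α₀ * α₁ = 0)
    (hu : Room g u) (hu0 : J a₀ u) (hu1 : J a₁ u) :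
    ∃ e : D, 0 ≤ e ∧ (∀ n, n * α₀ = 0 → n * α₁ = 0 → n * e = 0) ∧ J (cut (3 / 2) e) g ∧
      e ≤ (5 / 4 : ℝ) • (α₀ * α₀) + (45 / 4 : ℝ) • (α₁ * α₁) ∧
      e ≤ (45 / 4 : ℝ) • (α₀ * α₀) + (5 / 4 : ℝ) • (α₁ * α₁) := by
  obtain ⟨x₀, hx0, hb0, hl0⟩ := StepAX.piece h0 hu hu0
  obtain ⟨x₁, hx1, hb1, hl1⟩ := StepAX.piece h1 hu hu1
  have hs0 : star x₀ * α₀ = star x₀ := by
    have := congrArg star hx0
    rwa [star_mul, h0.sa'.star_eq] at this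
  have h01 : star x₀ * x₁ = 0 := by
    calc star x₀ * x₁ = (star x₀ * α₀) * (α₁ * x₁) := by rw [hs0, hx1]
      _ = star x₀ * (α₀ * α₁) * x₁ := by noncomm_ring
      _ = 0 := by rw [ho]; simp
  have h10 : star x₁ * x₀ = 0 := by
    have := congrArg star h01
    simpa [star_mul] using this
  have hsum : star (x₀ + x₁) * (x₀ + x₁) = star x₀ * x₀ + star x₁ * x₁ := by
    rw [star_add, add_mul, mul_add, mul_add, h01, h10]; simp
  refine ⟨(x₀ + x₁) * star (x₀ + x₁), mul_star_self_nonneg _, ?_, ?_, ?_, ?_⟩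
  · intro n hn0 hn1
    have e0 : n * x₀ = 0 := by rw [← hx0, ← mul_assoc, hn0, zero_mul]
    have e1 : n * x₁ = 0 := by rw [← hx1, ← mul_assoc, hn1, zero_mul]
    rw [← mul_assoc, mul_add, e0, e1]; simp
  · have hJ := (J_cut_star (x₀ + x₁) (τ := 3 / 2) (by norm_num)).smul (t := 1 / 2) (by norm_num)
    refine hu.J_of_le hJ (γ := 7 / 8) (by norm_num) ?_
    have hc := le_cut_add (e := star (x₀ + x₁) * (x₀ + x₁)) (IsSelfAdjoint.star_mul_self _) (3 / 2)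
    have h2 : u + u ≤ cut (3 / 2) (star (x₀ + x₁) * (x₀ + x₁)) + (3 / 2 : ℝ) • (1 : D) +
        ((1 / 8 : ℝ) • (1 : D) + (1 / 8 : ℝ) • (1 : D)) := by
      calc u + u ≤ (star x₀ * x₀ + (1 / 8 : ℝ) • (1 : D)) + (star x₁ * x₁ + (1 / 8 : ℝ) • (1 : D)) :=
            add_le_add hl0 hl1
        _ = star (x₀ + x₁) * (x₀ + x₁) + ((1 / 8 : ℝ) • (1 : D) + (1 / 8 : ℝ) • (1 : D)) := by
            rw [hsum]; abel
        _ ≤ _ := add_le_add hc le_rfl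
    have h3 := smul_le h2 (t := 1 / 2) (by norm_num)
    calc u = (1 / 2 : ℝ) • (u + u) := by module
      _ ≤ _ := h3
      _ = _ := by module
  · calc (x₀ + x₁) * star (x₀ + x₁)
        ≤ (1 + (1 / 9 : ℝ)) • (x₀ * star x₀) + (1 + (1 / 9 : ℝ)⁻¹) • (x₁ * star x₁) :=
          add_mul_star_le x₀ x₁ (by norm_num)
      _ ≤ (1 + (1 / 9 : ℝ)) • ((9 / 8 : ℝ) • (α₀ * α₀)) +
            (1 + (1 / 9 : ℝ)⁻¹) • ((9 / 8 : ℝ) • (α₁ * α₁)) :=
          add_le_add (smul_le hb0 (by norm_num)) (smul_le hb1 (by norm_num))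
      _ = _ := by rw [smul_smul, smul_smul]; norm_num
  · calc (x₀ + x₁) * star (x₀ + x₁)
        ≤ (1 + (9 : ℝ)) • (x₀ * star x₀) + (1 + (9 : ℝ)⁻¹) • (x₁ * star x₁) :=
          add_mul_star_le x₀ x₁ (by norm_num)
      _ ≤ (1 + (9 : ℝ)) • ((9 / 8 : ℝ) • (α₀ * α₀)) +
            (1 + (9 : ℝ)⁻¹) • ((9 / 8 : ℝ) • (α₁ * α₁)) :=
          add_le_add (smul_le hb0 (by norm_num)) (smul_le hb1 (by norm_num))
      _ = _ := by rw [smul_smul, smul_smul]; norm_num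

end Crest.Agent.R110
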