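import Crest.Agent.R110.Cont
import Crest.Agent.R110.StepA

/-! # Row 110: a fixed gain -/

set_option autoImplicit false
set_option linter.unusedSectionVars false

namespace Crest.Agent.R110

variable {D : Type*} [CStarAlgebra D] [PartialOrder D] [StarOrderedRing D]

/-- `w = cut (ε/2) ga`, `(g, u) = (cut (ε/2) w, unit)` from `exists_unit`, `ga ≤ g + ε`, `u` below `w`.
`rooms2 h ga (ε/4)`; `ga ≤ j₁ + ε/4` with `j₁` below `a₁`. `θ = M/120`, `q₀ = c⋆ α₀² c ≤ M b`,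
`k₁ = cut 0 (θ b - q₀)`, `θ b ≤ k₁ + q₀`. `b₀ = q₀ b q₀` is below `a₁`, and `q₀³ ≤ M b₀`. `η` from `J.compact`
for `gb`. `cont` for `(a₁, b₀, c q₀, θ)` with targets `j₁, q₀` and tolerance `min (ε/4) (θ η)` gives
`(h₁, α₁', r₁)`, `y₀ = q₀ r₁`. `step_sum` for `(a₀, α₀)`, `(h₁, α₁')`. For `y = y₀` and `y = k₁`:
`y⋆ c⋆ e c y ≤ (5/4 + 45/480) M y⋆ b y`. Rayleigh window `s = cut 0 (1.4 M b - c⋆ e c)`; room
`exists_unit e (3/2)`, `α² ≤ (2/3) e`, `(2/3) 1.4 ≤ 19/20`. -/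
theorem step {h b c : D} (hh : SPI h) (hb : SPI b) {M : ℝ} (hM : 0 < M)
    (hc : star c * c ≤ M • b) : Good h b c (19 / 20 * M) := by
  intro ga gb ε hga hgb hε
  have hga0 : 0 ≤ ga := hga.nonneg
  have hgasa : IsSelfAdjoint ga := IsSelfAdjoint.of_nonneg hga0
  have hb0 : 0 ≤ b := hb.nonneg
  have hbsa : IsSelfAdjoint b := IsSelfAdjoint.of_nonneg hb0
  -- the target room `(g, u)`
  set w : D := cut (ε / 2) ga with hw
  have hw0 : 0 ≤ w := cut_nonneg _ _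
  obtain ⟨u, hu, hule, -, -, -⟩ := exists_unit hw0 (half_pos hε)
  set g : D := cut (ε / 2) w with hg
  have hwu : J w u := (J.refl hw0).of_le_smul hu.2.1 (by positivity) hule
  have hgag : ga ≤ g + ε • (1 : D) := by
    have h1 : ga ≤ w + (ε / 2) • (1 : D) := le_cut_add hgasa _
    have h2 : w ≤ g + (ε / 2) • (1 : D) := le_cut_add (cut_sa _ _) _
    calc ga ≤ w + (ε / 2) • (1 : D) := h1
      _ ≤ (g + (ε / 2) • (1 : D)) + (ε / 2) • (1 : D) := by gcongr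
      _ = g + ε • (1 : D) := by module
  -- two rooms
  obtain ⟨a₀, α₀, a₁, α₁, hr0, hr1, hH0, hH1, hJ0, hJ1, ho, hJ10, hN0, hN1⟩ :=
    rooms2 hh hga (show 0 < ε / 4 by positivity)
  obtain ⟨j₁, hj₁, hj₁le⟩ := hN1
  have hha₁ : J h a₁ := hJ1.trans hr1.J_unit
  have ha₀u : J a₀ u := ((hN0.mono (by linarith : ε / 4 ≤ ε / 2)).to_cut hgasa).trans hwu
  set θ : ℝ := M / 120 with hθ
  have hθ0 : 0 < θ := by positivity
  have hsq : ∀ {a α : D}, Room a α → star c * (α * α) * c ≤ M • b := by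
    intro a α hr
    have h1 : α * α ≤ 1 := (sq_le_self hr.2.1 hr.2.2.1).trans hr.2.2.1
    have h2 := conj_le h1 c
    rw [mul_one] at h2
    exact h2.trans hc
  have hsq0 : ∀ {a α : D}, Room a α → 0 ≤ α * α := by
    intro a α hr
    have := sa_conj_nonneg (zero_le_one (α := D)) hr.sa'
    rwa [mul_one] at this
  set q₀ : D := star c * (α₀ * α₀) * c with hq₀
  have hq₀0 : 0 ≤ q₀ := conj_nonneg (hsq0 hr0) c
  have hq₀sa : IsSelfAdjoint q₀ := IsSelfAdjoint.of_nonneg hq₀0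
  have hq₀le : q₀ ≤ M • b := hsq hr0
  set k₁ : D := cut 0 (θ • b - q₀) with hk₁
  have hk₁sa : IsSelfAdjoint k₁ := cut_sa _ _
  have hθb : θ • b ≤ k₁ + q₀ := by
    have h1 : θ • b - q₀ ≤ k₁ :=
      le_cut_zero ((IsSelfAdjoint.smul (IsSelfAdjoint.all θ) hbsa).sub hq₀sa)
    exact sub_le_iff_le_add.1 h1
  set b₀ : D := q₀ * b * q₀ with hb₀
  have hb₀0 : 0 ≤ b₀ := sa_conj_nonneg hb0 hq₀sa
  have ha₁q₀ : J a₁ q₀ := hJ10.sq.conj c
  have ha₁b₀ : J a₁ b₀ := by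
    have h1 : J a₁ (q₀ * star q₀) := by rw [hq₀sa.star_eq]; exact ha₁q₀.sq
    have h2 := h1.mul_mid hb0
    rwa [hq₀sa.star_eq] at h2
  have hb₀q₀ : J b₀ q₀ := by
    refine J.of_cube hq₀0 ((J.refl hb₀0).of_le_smul (cube_nonneg hq₀0) hM.le ?_)
    have h1 := sa_conj_le hq₀le hq₀sa
    rwa [mul_smul_comm, smul_mul_assoc] at h1
  obtain ⟨η, hη, hcomp⟩ := J.compact hb0 hgb hε
  obtain ⟨h₁, β, r₁, hrβ, hHβ, hJβ, hNj, hNq, hcβ⟩ :=
    cont (c := c * q₀) (hh.of_J hha₁) ha₁b₀ hθ0 j₁ q₀ (min (ε / 4) (θ * η)) hj₁ hb₀q₀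
      (lt_min (by positivity) (by positivity))
  set y₀ : D := q₀ * r₁ with hy₀
  have hyb : star r₁ * b₀ * r₁ = star y₀ * b * y₀ := by
    rw [hy₀, hb₀, star_mul, hq₀sa.star_eq]; noncomm_ring
  rw [hyb] at hNq hcβ
  have hα₀a₁ : ∀ n : D, n * α₁ = 0 → n * β = 0 := by
    intro n hn
    refine hHβ n ?_
    rw [← hr1.2.2.2, ← mul_assoc, hn, zero_mul]
  have hh₁u : J h₁ u := by
    have h1 : Nr ga h₁ (ε / 2) := (Nr.step hj₁le hNj).mono (by
      have := min_le_left (ε / 4) (θ * η); linarith)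
    exact (h1.to_cut hgasa).trans hwu
  obtain ⟨e, he0, heH, heJ, he1, he2⟩ := step_sum hr0 hrβ (hα₀a₁ _ ho) hu ha₀u hh₁u
  set q : D := star c * e * c with hq
  have hq0 : 0 ≤ q := conj_nonneg he0 c
  have hqsa : IsSelfAdjoint q := IsSelfAdjoint.of_nonneg hq0
  have hy1 : star y₀ * q * y₀ ≤ (43 / 32 * M) • (star y₀ * b * y₀) := by
    have h1 := conj_le he1 (c * y₀)
    have h2 := conj_le hq₀le y₀
    have h3 : star (c * y₀) * (β * β) * (c * y₀) ≤ θ • (star y₀ * b * y₀) := by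
      have : c * q₀ * r₁ = c * y₀ := by rw [hy₀, mul_assoc]
      rwa [this] at hcβ
    calc star y₀ * q * y₀ = star (c * y₀) * e * (c * y₀) := by
          rw [hq, star_mul c]; simp only [mul_assoc]
      _ ≤ _ := h1
      _ = (5 / 4 : ℝ) • (star y₀ * q₀ * y₀) +
            (45 / 4 : ℝ) • (star (c * y₀) * (β * β) * (c * y₀)) := by
          rw [hq₀, star_mul c]
          simp only [mul_add, add_mul, mul_smul_comm, smul_mul_assoc, mul_assoc]
      _ ≤ (5 / 4 : ℝ) • (star y₀ * (M • b) * y₀) + (45 / 4 : ℝ) • (θ • (star y₀ * b * y₀)) :=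
          add_le_add (smul_le h2 (by norm_num)) (smul_le h3 (by norm_num))
      _ = (43 / 32 * M) • (star y₀ * b * y₀) := by
          rw [mul_smul_comm, smul_mul_assoc, hθ]; module
  have hy2 : star k₁ * q * k₁ ≤ (43 / 32 * M) • (star k₁ * b * k₁) := by
    have h1 := conj_le he2 (c * k₁)
    have h2 := conj_le (hsq hrβ) k₁
    have h3 : star k₁ * q₀ * k₁ ≤ θ • (star k₁ * b * k₁) := by
      rw [hk₁sa.star_eq]; exact ray_le hbsa hq₀sa θ
    calc star k₁ * q * k₁ = star (c * k₁) * e * (c * k₁) := by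
          rw [hq, star_mul c]; simp only [mul_assoc]
      _ ≤ _ := h1
      _ = (45 / 4 : ℝ) • (star k₁ * q₀ * k₁) +
            (5 / 4 : ℝ) • (star k₁ * (star c * (β * β) * c) * k₁) := by
          rw [hq₀, star_mul c]
          simp only [mul_add, add_mul, mul_smul_comm, smul_mul_assoc, mul_assoc]
      _ ≤ (45 / 4 : ℝ) • (θ • (star k₁ * b * k₁)) + (5 / 4 : ℝ) • (star k₁ * (M • b) * k₁) :=
          add_le_add (smul_le h3 (by norm_num)) (smul_le h2 (by norm_num))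
      _ = (43 / 32 * M) • (star k₁ * b * k₁) := by
          rw [mul_smul_comm, smul_mul_assoc, hθ]; module
  set s : D := cut 0 ((7 / 5 * M) • b - q) with hs
  have hssa : IsSelfAdjoint s := cut_sa _ _
  have hB1 : J (s * b * s) (star y₀ * b * y₀) :=
    ray_J hb0 hq0 (by positivity) (by linarith) hy1
  have hB2 : J (s * b * s) k₁ := by
    have h1 : J (s * b * s) (star k₁ * b * k₁) :=
      ray_J hb0 hq0 (by positivity) (by linarith) hy2
    rw [hk₁sa.star_eq] at h1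
    exact h1.trans (ray_self hb0 hq₀0 hθ0.le)
  have hBS : SPI (s * b * s) := hb.of_J ((J.refl hb0).sa_conj hssa)
  have hNb : Nr gb (s * b * s) ε := by
    refine hcomp _ (Nr.of_smul hθ0 ?_)
    obtain ⟨j, hj, hjle⟩ := hNq.mono (min_le_right _ _)
    refine ⟨k₁ + j, hBS.add hB2 (hB1.trans hj), ?_⟩
    calc θ • b ≤ k₁ + q₀ := hθb
      _ ≤ k₁ + (j + (θ * η) • (1 : D)) := by gcongr
      _ = _ := by rw [add_assoc]
  obtain ⟨α, hα, hαle, hαsq, hαH, -⟩ := exists_unit he0 (show (0 : ℝ) < 3 / 2 by norm_num)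
  have hhe : J h e :=
    (hh.add (hJ0.sq.smul (by norm_num)) ((hha₁.trans hJβ).sq.smul (by norm_num))).of_le he0 he1
  refine ⟨cut (3 / 2) e, α, s, hα, ?_, hhe.of_le_smul hα.2.1 (by norm_num) hαle,
    ⟨g, heJ, hgag⟩, ?_, ?_⟩
  · intro n hn
    exact hαH n (heH n (hH0 n hn) (hα₀a₁ n (hH1 n hn)))
  · rwa [hssa.star_eq]
  · have h1 := conj_le hαsq (c * s)
    have h2 : s * q * s ≤ (7 / 5 * M) • (s * b * s) := ray_le hbsa hqsa _
    have h3 : 0 ≤ s * b * s := hBS.nonneg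
    rw [hssa.star_eq]
    calc star (c * s) * (α * α) * (c * s) ≤ _ := h1
      _ = (3 / 2 : ℝ)⁻¹ • (s * q * s) := by
          rw [hq, star_mul c, hssa.star_eq]
          simp only [mul_smul_comm, smul_mul_assoc, mul_assoc]
      _ ≤ (3 / 2 : ℝ)⁻¹ • ((7 / 5 * M) • (s * b * s)) := smul_le h2 (by norm_num)
      _ = ((3 / 2 : ℝ)⁻¹ * (7 / 5 * M)) • (s * b * s) := by rw [smul_smul]
      _ ≤ (19 / 20 * M) • (s * b * s) := smul_le_smul_left' h3 (by nlinarith)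

end Crest.Agent.R110
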